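import Crest.Agent.H5.PR.A1
import Crest.Prelude.Def_QState

set_option autoImplicit false
set_option linter.unusedSectionVars false

namespace Crest.Agent.H5.AD

open Matrix Set Filter Crest.Agent.H5.PR Crest.Quantum
open scoped ComplexOrder MatrixOrder BigOperators Topology

/-! ### integral representations, via antiderivatives -/

/-- `F` has an antiderivative with prescribed boundary behaviour. -/
def Rep (F : ℝ → ℝ) (m s : ℝ) : Prop :=
  ∃ G : ℝ → ℝ, ContinuousOn G (Ici 0) ∧ (∀ t, 0 < t → HasDerivAt G (F t) t) ∧ G 0 = -s ∧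
    Tendsto (fun t => G t - m * Real.log t) atTop (𝓝 m)

lemma Rep.congr {F F' : ℝ → ℝ} {m m' s s' : ℝ} (h : Rep F m s) (hF : ∀ t, 0 < t → F t = F' t)
    (hm : m = m') (hs : s = s') : Rep F' m' s' := by
  obtain ⟨G, h1, h2, h3, h4⟩ := h
  subst hm hs
  exact ⟨G, h1, fun t ht => hF t ht ▸ h2 t ht, h3, h4⟩

lemma Rep.add {F F' : ℝ → ℝ} {m m' s s' : ℝ} (h : Rep F m s) (h' : Rep F' m' s') :
    Rep (fun t => F t + F' t) (m + m') (s + s') := by
  obtain ⟨G, h1, h2, h3, h4⟩ := h
  obtain ⟨G', h1', h2', h3', h4'⟩ := h'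
  refine ⟨fun t => G t + G' t, h1.add h1', fun t ht => (h2 t ht).add (h2' t ht), ?_, ?_⟩
  · simp only [h3, h3']; ring
  · refine (h4.add h4').congr fun t => ?_
    ring

lemma Rep.const_mul {F : ℝ → ℝ} {m s : ℝ} (h : Rep F m s) (c : ℝ) :
    Rep (fun t => c * F t) (c * m) (c * s) := by
  obtain ⟨G, h1, h2, h3, h4⟩ := h
  refine ⟨fun t => c * G t, continuousOn_const.mul h1, fun t ht => (h2 t ht).const_mul c, ?_, ?_⟩
  · simp only [h3]; ring
  · refine (h4.const_mul c).congr fun t => ?_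
    ring

lemma Rep.sub {F F' : ℝ → ℝ} {m m' s s' : ℝ} (h : Rep F m s) (h' : Rep F' m' s') :
    Rep (fun t => F t - F' t) (m - m') (s - s') :=
  (h.add (h'.const_mul (-1))).congr (fun t _ => by ring) (by ring) (by ring)

lemma rep_zero : Rep (fun _ => 0) 0 0 :=
  ⟨fun _ => 0, continuousOn_const, fun t _ => hasDerivAt_const t 0, by simp, by simp⟩

lemma Rep.sum {ι : Type} (S : Finset ι) {F : ι → ℝ → ℝ} {m s : ι → ℝ}
    (h : ∀ i ∈ S, Rep (F i) (m i) (s i)) :
    Rep (fun t => ∑ i ∈ S, F i t) (∑ i ∈ S, m i) (∑ i ∈ S, s i) := by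
  classical
  induction S using Finset.induction_on with
  | empty => simpa using rep_zero
  | insert a S ha ih =>
    simp only [Finset.sum_insert ha]
    exact (h a (Finset.mem_insert_self _ _)).add
      (ih fun i hi => h i (Finset.mem_insert_of_mem hi))

lemma Rep.mono {F F' : ℝ → ℝ} {m s s' : ℝ} (h : Rep F m s) (h' : Rep F' m s')
    (hF : ∀ t, 0 < t → F t ≤ F' t) : s ≤ s' := by
  obtain ⟨G, h1, h2, h3, h4⟩ := h'.sub h
  have hm : MonotoneOn G (Ici 0) := by
    refine monotoneOn_of_hasDerivWithinAt_nonneg (f' := fun t => F' t - F t) (convex_Ici 0) h1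
      (fun x hx => ?_) (fun x hx => ?_)
    · rw [interior_Ici] at hx ⊢
      exact (h2 x hx).hasDerivWithinAt
    · rw [interior_Ici] at hx
      have := hF x hx; linarith
  simp only [sub_self, zero_mul, sub_zero] at h4
  have : G 0 ≤ 0 := ge_of_tendsto h4 (by
    filter_upwards [eventually_ge_atTop (0 : ℝ)] with t ht
    exact hm (le_refl (0 : ℝ)) ht ht)
  linarith

lemma Rep.unique {F : ℝ → ℝ} {m s s' : ℝ} (h : Rep F m s) (h' : Rep F m s') : s = s' :=
  le_antisymm (h.mono h' fun _ _ => le_rfl) (h'.mono h fun _ _ => le_rfl)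

lemma rep_log {x : ℝ} (hx : 0 ≤ x) :
    Rep (fun t => Real.log (1 + x / t)) x (Real.negMulLog x) := by
  refine ⟨fun t => (t + x) * Real.log (t + x) - t * Real.log t, ?_, fun t ht => ?_, ?_, ?_⟩
  · exact ((Real.continuous_mul_log.comp (continuous_id.add continuous_const)).sub
      Real.continuous_mul_log).continuousOn
  · have h1 : 0 < t + x := by linarith
    have := (((hasDerivAt_id' t).add_const x).fun_mul
      (((hasDerivAt_id' t).add_const x).log h1.ne')).fun_sub
      ((hasDerivAt_id' t).fun_mul ((hasDerivAt_id' t).log ht.ne'))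
    refine this.congr_deriv ?_
    have e : 1 + x / t = (t + x) / t := by field_simp
    beta_reduce
    rw [e, Real.log_div h1.ne' ht.ne']
    field_simp; ring
  · simp [Real.negMulLog]
  · have h1 := Real.tendsto_mul_log_one_add_div_atTop x
    have h2 : Tendsto (fun t : ℝ => x * Real.log (1 + x / t)) atTop (𝓝 0) := by
      have : Tendsto (fun t : ℝ => 1 + x / t) atTop (𝓝 (1 + 0)) :=
        (Tendsto.div_atTop tendsto_const_nhds tendsto_id).const_add 1
      have := (this.log (by norm_num)).const_mul x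
      simpa using this
    have := h1.add h2
    rw [add_zero] at this
    refine this.congr' ?_
    filter_upwards [eventually_gt_atTop (0 : ℝ)] with t ht
    have h1 : 0 < t + x := by linarith
    have e : 1 + x / t = (t + x) / t := by field_simp
    rw [e, Real.log_div h1.ne' ht.ne']; ring

variable {α β γ δ : Type} [Fintype α] [Fintype β] [Fintype γ] [Fintype δ]
  [DecidableEq α] [DecidableEq β] [DecidableEq γ] [DecidableEq δ]

/-! ### modulus of the determinant -/

/-- modulus of the determinant -/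
noncomputable def nd (P : Matrix α α ℂ) : ℝ := ‖P.det‖

lemma nd_nonneg (P : Matrix α α ℂ) : 0 ≤ nd P := norm_nonneg _
lemma nd_mul (P Q : Matrix α α ℂ) : nd (P * Q) = nd P * nd Q := by simp [nd]
lemma nd_one : nd (1 : Matrix α α ℂ) = 1 := by simp [nd]
lemma nd_conjTranspose (P : Matrix α α ℂ) : nd Pᴴ = nd P := by simp [nd, det_conjTranspose]
lemma nd_dg {f : α → ℝ} (hf : ∀ i, 0 ≤ f i) : nd (dg f) = ∏ i, f i := by
  simp only [nd, dg, det_diagonal, norm_prod, Complex.norm_real, Real.norm_eq_abs]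
  exact Finset.prod_congr rfl fun i _ => abs_of_nonneg (hf i)
lemma nd_uni {U : Matrix α α ℂ} (hU : Uni U) : nd U = 1 := by
  have h := congrArg nd hU.1
  rw [nd_mul, nd_conjTranspose, nd_one] at h
  have := nd_nonneg U
  nlinarith
lemma nd_sp {U : Matrix α α ℂ} (hU : Uni U) {f : α → ℝ} (hf : ∀ i, 0 ≤ f i) :
    nd (sp U f) = ∏ i, f i := by
  rw [sp, nd_mul, nd_mul, nd_conjTranspose, nd_uni hU, nd_dg hf]; ring
lemma nd_pos_iff (P : Matrix α α ℂ) : 0 < nd P ↔ IsUnit P.det := by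
  rw [nd, norm_pos_iff, isUnit_iff_ne_zero]
lemma nd_posDef {P : Matrix α α ℂ} (hP : P.PosDef) : 0 < nd P :=
  (nd_pos_iff P).mpr ((isUnit_iff_isUnit_det P).mp hP.isUnit)
lemma nd_submatrix (P : Matrix α α ℂ) (e : β ≃ α) : nd (P.submatrix e e) = nd P := by
  simp [nd]

lemma rt_dg (f : α → ℝ) : rt (dg f) = ∑ i, f i := by simp [rt, dg]
lemma rt_sp {U : Matrix α α ℂ} (hU : Uni U) (f : α → ℝ) : rt (sp U f) = ∑ i, f i := by
  rw [sp, rt_comm, ← Matrix.mul_assoc, hU.1, Matrix.one_mul, rt_dg]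
lemma rt_submatrix (P : Matrix α α ℂ) (e : β ≃ α) : rt (P.submatrix e e) = rt P := by
  simp only [rt, trace, diag, submatrix_apply]
  rw [e.sum_comp (fun i => P i i)]

lemma one_add_sp {U : Matrix α α ℂ} (hU : Uni U) (f : α → ℝ) (t : ℝ) :
    1 + t⁻¹ • sp U f = sp U fun i => 1 + f i / t := by
  rw [← sp_one hU, sp_smul, sp_add]; congr 1; ext i; ring

lemma one_le_nd {R : Matrix α α ℂ} (hR : R.PosSemidef) : 1 ≤ nd (1 + R) := by
  obtain ⟨U, f, hU, rfl⟩ := exists_spec hR.1
  have hf := sp_psd_iff hU hR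
  rw [← sp_one hU, sp_add, nd_sp hU fun i => by have := hf i; linarith]
  exact Finset.one_le_prod fun i _ => by have := hf i; linarith

lemma nd_le_add {P Q : Matrix α α ℂ} (hP : P.PosSemidef) (hQ : Q.PosSemidef) :
    nd P ≤ nd (P + Q) := by
  rcases (nd_nonneg P).eq_or_lt with h | h
  · rw [← h]; exact nd_nonneg _
  obtain ⟨C, rfl⟩ := exists_fac hP
  have hC : IsUnit C.det := by
    rw [← nd_pos_iff]
    rw [nd_mul, nd_conjTranspose] at h
    rcases (nd_nonneg C).eq_or_lt with h0 | h0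
    · rw [← h0] at h; simp at h
    · exact h0
  have e : Cᴴ * C + Q = Cᴴ * (1 + (C⁻¹)ᴴ * Q * C⁻¹) * C := by
    rw [Matrix.mul_add, Matrix.add_mul, Matrix.mul_one]
    congr 1
    have h1 : Cᴴ * (C⁻¹)ᴴ = 1 := by rw [← conjTranspose_mul, nonsing_inv_mul _ hC, conjTranspose_one]
    calc Q = (Cᴴ * (C⁻¹)ᴴ) * Q * (C⁻¹ * C) := by rw [h1, nonsing_inv_mul _ hC]; simp
      _ = _ := by simp only [Matrix.mul_assoc]
  rw [e, nd_mul, nd_mul, nd_mul, nd_conjTranspose]
  have h1 := one_le_nd (hQ.conjTranspose_mul_mul_same C⁻¹)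
  have h2 := nd_nonneg C
  nlinarith [mul_nonneg h2 h2]

/-- the log-determinant function -/
noncomputable def Lg (P : Matrix α α ℂ) (t : ℝ) : ℝ := Real.log (nd (1 + t⁻¹ • P))

lemma rep_sp {U : Matrix α α ℂ} (hU : Uni U) {f : α → ℝ} (hf : ∀ i, 0 ≤ f i) :
    Rep (Lg (sp U f)) (∑ i, f i) (∑ i, Real.negMulLog (f i)) := by
  refine (Rep.sum Finset.univ fun i _ => rep_log (hf i)).congr (fun t ht => ?_) rfl rfl
  have h : ∀ i, 0 < 1 + f i / t := fun i => by have := hf i; positivity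
  rw [Lg, one_add_sp hU, nd_sp hU fun i => (h i).le, Real.log_prod fun i _ => (h i).ne']

lemma rep_ent {P : Matrix α α ℂ} (hP : P.PosSemidef) : Rep (Lg P) (rt P) (vnEntropy P) := by
  have hU : Uni (hP.1.eigenvectorUnitary : Matrix α α ℂ) :=
    ⟨Unitary.coe_star_mul_self hP.1.eigenvectorUnitary,
      Unitary.coe_mul_star_self hP.1.eigenvectorUnitary⟩
  have e : P = sp hP.1.eigenvectorUnitary hP.1.eigenvalues := by
    have := hP.1.spectral_theorem
    rw [Unitary.conjStarAlgAut_apply] at this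
    exact this
  have h := rep_sp hU hP.eigenvalues_nonneg
  rw [← e] at h
  refine h.congr (fun _ _ => rfl) ?_ ?_
  · rw [← rt_sp hU, ← e]
  · rw [vnEntropy, dif_pos hP.1, ← Finset.sum_neg_distrib]
    simp [Real.negMulLog]

lemma ent_sp {U : Matrix α α ℂ} (hU : Uni U) {f : α → ℝ} (hf : ∀ i, 0 ≤ f i) :
    vnEntropy (sp U f) = ∑ i, Real.negMulLog (f i) := by
  have h := rep_ent (sp_psd U hf)
  rw [rt_sp hU] at h
  exact h.unique (rep_sp hU hf)

lemma ent_submatrix {P : Matrix α α ℂ} (hP : P.PosSemidef) (e : β ≃ α) :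
    vnEntropy (P.submatrix e e) = vnEntropy P := by
  have h := rep_ent (hP.submatrix e)
  rw [rt_submatrix] at h
  refine h.unique ((rep_ent hP).congr (fun t _ => ?_) rfl rfl)
  rw [Lg, Lg, ← nd_submatrix _ e]
  congr 2
  simp [submatrix_add, submatrix_smul]

lemma ent_comm (A : Matrix α β ℂ) : vnEntropy (A * Aᴴ) = vnEntropy (Aᴴ * A) := by
  have h := rep_ent (posSemidef_self_mul_conjTranspose A)
  rw [rt_comm] at h
  refine h.unique ((rep_ent (posSemidef_conjTranspose_mul_self A)).congr (fun t _ => ?_) rfl rfl)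
  rw [Lg, Lg, nd, nd, ← Matrix.smul_mul, det_one_add_mul_comm, Matrix.mul_smul]

lemma uni_adj {U : Matrix α α ℂ} (hU : Uni U) : Uni Uᴴ := by
  constructor
  · rw [conjTranspose_conjTranspose]; exact hU.2
  · rw [conjTranspose_conjTranspose]; exact hU.1

lemma uni_mul {U V : Matrix α α ℂ} (hU : Uni U) (hV : Uni V) : Uni (U * V) := by
  constructor
  · rw [conjTranspose_mul, Matrix.mul_assoc, ← Matrix.mul_assoc Uᴴ, hU.1, Matrix.one_mul, hV.1]
  · rw [conjTranspose_mul, Matrix.mul_assoc, ← Matrix.mul_assoc V, hV.2, Matrix.one_mul, hU.2]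

lemma sp_diag (V : Matrix α α ℂ) (f : α → ℝ) (i : α) :
    (sp V f i i).re = ∑ j, ‖V i j‖ ^ 2 * f j := by
  simp only [sp, dg, Matrix.mul_apply, diagonal_apply, conjTranspose_apply, mul_ite, mul_zero,
    Finset.sum_ite_eq', Finset.mem_univ, if_true, Complex.re_sum]
  refine Finset.sum_congr rfl fun j _ => ?_
  rw [mul_right_comm, Complex.star_def, Complex.mul_conj']
  norm_cast

lemma uni_row {V : Matrix α α ℂ} (hV : Uni V) (i : α) : ∑ j, ‖V i j‖ ^ 2 = 1 := by
  have := sp_diag V (fun _ => 1) i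
  rw [sp_one hV] at this
  simpa using this.symm

lemma uni_col {V : Matrix α α ℂ} (hV : Uni V) (j : α) : ∑ i, ‖V i j‖ ^ 2 = 1 := by
  have := uni_row (uni_adj hV) j
  simpa [conjTranspose_apply] using this

/-- diagonal entry in the basis `U` -/
noncomputable def de (U P : Matrix α α ℂ) (i : α) : ℝ := ((Uᴴ * P * U) i i).re

lemma de_nonneg (U : Matrix α α ℂ) {P : Matrix α α ℂ} (hP : P.PosSemidef) (i : α) :
    0 ≤ de U P i :=
  (Complex.nonneg_iff.mp (hP.conjTranspose_mul_mul_same U).diag_nonneg).1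

lemma sum_de {U : Matrix α α ℂ} (hU : Uni U) (P : Matrix α α ℂ) : ∑ i, de U P i = rt P := by
  have : rt (Uᴴ * P * U) = rt P := by rw [rt_comm, ← Matrix.mul_assoc, hU.2, Matrix.one_mul]
  rw [← this]; simp [de, rt, trace]

lemma de_add (U P Q : Matrix α α ℂ) (i : α) : de U (P + Q) i = de U P i + de U Q i := by
  simp [de, Matrix.mul_add, Matrix.add_mul]

lemma de_sp {U : Matrix α α ℂ} (hU : Uni U) (f : α → ℝ) (i : α) : de U (sp U f) i = f i := by
  have e : Uᴴ * sp U f * U = dg f := by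
    simp only [sp, Matrix.mul_assoc]
    rw [hU.1, Matrix.mul_one, ← Matrix.mul_assoc, hU.1, Matrix.one_mul]
  simp [de, e, dg]

/-- Peierls' inequality -/
lemma peierls {U : Matrix α α ℂ} (hU : Uni U) {P : Matrix α α ℂ} (hP : P.PosSemidef) :
    vnEntropy P ≤ ∑ i, Real.negMulLog (de U P i) := by
  obtain ⟨W, f, hW, rfl⟩ := exists_spec hP.1
  have hf := sp_psd_iff hW hP
  have hV : Uni (Uᴴ * W) := uni_mul (uni_adj hU) hW
  have e : Uᴴ * sp W f * U = sp (Uᴴ * W) f := by
    simp only [sp, conjTranspose_mul, conjTranspose_conjTranspose, Matrix.mul_assoc]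
  rw [ent_sp hW hf]
  calc ∑ j, Real.negMulLog (f j) = ∑ j, ∑ i, ‖(Uᴴ * W) i j‖ ^ 2 * Real.negMulLog (f j) := by
        refine Finset.sum_congr rfl fun j _ => ?_
        rw [← Finset.sum_mul, uni_col hV, one_mul]
    _ = ∑ i, ∑ j, ‖(Uᴴ * W) i j‖ ^ 2 * Real.negMulLog (f j) := Finset.sum_comm
    _ ≤ _ := by
        refine Finset.sum_le_sum fun i _ => ?_
        rw [de, e, sp_diag]
        exact Real.concaveOn_negMulLog.le_map_sum (t := Finset.univ) (fun j _ => by positivity)
          (uni_row hV i) (fun j _ => hf j)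

/-! ### the homogeneous entropy -/

lemma gibbs2 {x y θ : ℝ} (hx : 0 ≤ x) (hy : 0 ≤ y) (h0 : 0 < θ) (h1 : θ < 1) :
    Real.negMulLog x + Real.negMulLog y + x * Real.log θ + y * Real.log (1 - θ) ≤
      Real.negMulLog (x + y) := by
  have h2 : 0 < 1 - θ := by linarith
  have := Real.concaveOn_negMulLog.2 (x := x / θ) (y := y / (1 - θ))
    (show 0 ≤ x / θ by positivity) (show 0 ≤ y / (1 - θ) by positivity) h0.le h2.le (by ring)
  simp only [smul_eq_mul] at this
  have e1 : θ * (x / θ) + (1 - θ) * (y / (1 - θ)) = x + y := by field_simp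
  have e2 : ∀ z c : ℝ, 0 < c → c * Real.negMulLog (z / c) = Real.negMulLog z + z * Real.log c := by
    intro z c hc
    have := Real.negMulLog_mul (z / c) c
    rw [div_mul_cancel₀ _ hc.ne'] at this
    have e3 : z / c * c.negMulLog = -(z * Real.log c) := by
      rw [Real.negMulLog]; field_simp
    rw [this, e3]; ring
  rw [e1, e2 _ _ h0, e2 _ _ h2] at this
  linarith

/-- log-sum inequality -/
lemma logsum {ι : Type} [Fintype ι] {x y : ι → ℝ} (hx : ∀ i, 0 ≤ x i) (hy : ∀ i, 0 ≤ y i) :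
    (∑ i, Real.negMulLog (x i) - Real.negMulLog (∑ i, x i)) +
      (∑ i, Real.negMulLog (y i) - Real.negMulLog (∑ i, y i)) ≤
      ∑ i, Real.negMulLog (x i + y i) - Real.negMulLog (∑ i, x i + ∑ i, y i) := by
  have hp : 0 ≤ ∑ i, x i := Finset.sum_nonneg fun i _ => hx i
  have hq : 0 ≤ ∑ i, y i := Finset.sum_nonneg fun i _ => hy i
  rcases hp.eq_or_lt with h | hp
  · have : ∀ i, x i = 0 := fun i =>
      (Finset.sum_eq_zero_iff_of_nonneg fun i _ => hx i).mp h.symm i (Finset.mem_univ i)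
    simp [this]
  rcases hq.eq_or_lt with h | hq
  · have : ∀ i, y i = 0 := fun i =>
      (Finset.sum_eq_zero_iff_of_nonneg fun i _ => hy i).mp h.symm i (Finset.mem_univ i)
    simp [this]
  set p := ∑ i, x i with hp'
  set q := ∑ i, y i with hq'
  have h0 : 0 < p / (p + q) := by positivity
  have h1 : p / (p + q) < 1 := by rw [div_lt_one (by positivity)]; linarith
  have h := Finset.sum_le_sum (s := Finset.univ) fun i _ => gibbs2 (hx i) (hy i) h0 h1
  simp only [Finset.sum_add_distrib, ← Finset.sum_mul] at h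
  rw [← hp', ← hq'] at h
  have e : 1 - p / (p + q) = q / (p + q) := by field_simp; ring
  rw [e, Real.log_div hp.ne' (by positivity), Real.log_div hq.ne' (by positivity)] at h
  simp only [Real.negMulLog] at h ⊢
  linarith

/-- homogeneous entropy -/
noncomputable def Sh (P : Matrix α α ℂ) : ℝ := vnEntropy P - Real.negMulLog (rt P)

lemma Sh_add {P Q : Matrix α α ℂ} (hP : P.PosSemidef) (hQ : Q.PosSemidef) :
    Sh P + Sh Q ≤ Sh (P + Q) := by
  obtain ⟨U, f, hU, hf⟩ := exists_spec (hP.add hQ).1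
  have hf0 := sp_psd_iff hU (hf ▸ hP.add hQ)
  have h1 := peierls hU hP
  have h2 := peierls hU hQ
  have h3 := logsum (de_nonneg U hP) (de_nonneg U hQ)
  simp only [sum_de hU, ← de_add] at h3
  rw [Sh, Sh, Sh, rt_add]
  have : vnEntropy (P + Q) = ∑ i, Real.negMulLog (de U (P + Q) i) := by
    rw [hf, ent_sp hU hf0]; simp only [de_sp hU]
  linarith

lemma Sh_smul {P : Matrix α α ℂ} (hP : P.PosSemidef) {c : ℝ} (hc : 0 ≤ c) :
    Sh (c • P) = c * Sh P := by
  obtain ⟨U, f, hU, rfl⟩ := exists_spec hP.1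
  have hf := sp_psd_iff hU hP
  rw [Sh, Sh, rt_smul, sp_smul, ent_sp hU fun i => mul_nonneg hc (hf i), ent_sp hU hf, rt_sp hU]
  simp only [Real.negMulLog_mul, Finset.sum_add_distrib, ← Finset.sum_mul, ← Finset.mul_sum]
  ring

end Crest.Agent.H5.AD
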