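import Crest.Agent.H5.AD.B1

set_option autoImplicit false
set_option linter.unusedSectionVars false
set_option linter.unusedSimpArgs false

namespace Crest.Agent.H5.AD

open Matrix Set Filter Crest.Agent.H5.PR Crest.Quantum
open scoped ComplexOrder MatrixOrder BigOperators Topology

variable {α β γ δ : Type} [Fintype α] [Fintype β] [Fintype γ] [Fintype δ]
  [DecidableEq α] [DecidableEq β] [DecidableEq γ] [DecidableEq δ]

lemma hua_id (A U : Matrix α α ℂ) :
    (1 - Aᴴ * U)ᴴ * (1 - Aᴴ * A) * (1 - Aᴴ * U) =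
      (1 - (U + A * (1 - Aᴴ * U))ᴴ * (U + A * (1 - Aᴴ * U))) + Uᴴ * (1 - A * Aᴴ) * U := by
  simp only [conjTranspose_sub, conjTranspose_add, conjTranspose_one, conjTranspose_mul,
    conjTranspose_conjTranspose]
  noncomm_ring

/-- a special case of Hua's determinant inequality -/
lemma hua {C D : Matrix α α ℂ} (hC : Contr C) (hD : Dᴴ = D) (h1 : (1 - D * D).PosSemidef) :
    nd (1 - D * D) ≤ nd (1 - C * D * (C * D)) := by
  rcases (nd_nonneg (1 - D * D)).eq_or_lt with h | h
  · rw [← h]; exact nd_nonneg _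
  set A : Matrix α α ℂ := D * Cᴴ with hA
  set B : Matrix α α ℂ := C * D with hB
  have hAB : Aᴴ = B := by rw [hA, conjTranspose_mul, conjTranspose_conjTranspose, hD]
  have hBA : Bᴴ = A := by rw [← hAB, conjTranspose_conjTranspose]
  have hQ : 1 - A * B = (1 - D * D) + Dᴴ * (1 - Cᴴ * C) * D := by
    rw [hD, hA, hB]; noncomm_ring
  have hQp : (1 - A * B).PosSemidef := by
    rw [hQ]; exact h1.add (PosSemidef.conjTranspose_mul_mul_same hC D)
  have hQn : nd (1 - D * D) ≤ nd (1 - A * B) := by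
    rw [hQ]; exact nd_le_add h1 (PosSemidef.conjTranspose_mul_mul_same hC D)
  have hPQ : nd (1 - B * A) = nd (1 - A * B) := by rw [nd, nd, det_one_sub_mul_comm]
  have hP : IsUnit (1 - B * A).det := by rw [← nd_pos_iff, hPQ]; linarith
  set E : Matrix α α ℂ := (1 - B * A)⁻¹ * (1 - B * B) with hE
  have hPE : (1 - B * A) * E = 1 - B * B := by
    rw [hE, ← Matrix.mul_assoc, mul_nonsing_inv _ hP, Matrix.one_mul]
  set U : Matrix α α ℂ := B - A * E with hU
  have e1 : 1 - Aᴴ * U = E := by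
    rw [hAB, hU]
    have : E = 1 - B * B + B * A * E := by rw [← hPE]; noncomm_ring
    conv_rhs => rw [this]
    noncomm_ring
  have e2 : U + A * E = B := by rw [hU]; abel
  have hid := hua_id A U
  rw [e1, e2, hAB, hBA] at hid
  have h2 : nd (1 - A * B) ≤ nd (Eᴴ * (1 - B * A) * E) := by
    rw [hid]; exact nd_le_add hQp (hQp.conjTranspose_mul_mul_same U)
  rw [nd_mul, nd_mul, nd_conjTranspose, hPQ] at h2
  have h3 : nd (1 - B * B) = nd (1 - A * B) * nd E := by rw [← hPE, nd_mul, hPQ]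
  have h4 := nd_nonneg E
  have h5 : 1 ≤ nd E := by
    by_contra hc
    push Not at hc
    have : nd E * nd E < 1 := by nlinarith
    nlinarith
  rw [h3]; nlinarith

lemma mid0 {D K : Matrix α α ℂ} (hD : Dᴴ = D) (hp : (1 + D).PosSemidef) (hm : (1 - D).PosSemidef)
    (hK : Kᴴ = -K) :
    nd (1 + K) ^ 2 * (nd (1 + D) * nd (1 - D)) ≤ nd (1 + D + K) * nd (1 - D + K) := by
  have hL : (1 + K)ᴴ * (1 + K) = 1 + Kᴴ * K := by
    rw [conjTranspose_add, conjTranspose_one, hK]; noncomm_ring
  have hLn : 1 ≤ nd (1 + K) * nd (1 + K) := by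
    have := one_le_nd (posSemidef_conjTranspose_mul_self K)
    rwa [← hL, nd_mul, nd_conjTranspose] at this
  have hLu : IsUnit (1 + K).det := by
    rw [← nd_pos_iff]
    rcases (nd_nonneg (1 + K)).eq_or_lt with h | h
    · rw [← h] at hLn; norm_num at hLn
    · exact h
  set C : Matrix α α ℂ := (1 + K)⁻¹ with hC
  have hLC : (1 + K) * C = 1 := mul_nonsing_inv _ hLu
  have hCc : Contr C := by
    have : 1 - Cᴴ * C = (K * C)ᴴ * (K * C) := by
      have h : ((1 + K) * C)ᴴ * ((1 + K) * C) = 1 := by rw [hLC]; simp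
      rw [conjTranspose_mul, Matrix.mul_assoc, ← Matrix.mul_assoc (1 + K)ᴴ, hL] at h
      rw [← h, conjTranspose_mul]; noncomm_ring
    rw [Contr, this]; exact posSemidef_conjTranspose_mul_self _
  have hDD : (1 - D * D).PosSemidef := by
    have e : 1 - D * D = (1 / 2 : ℝ) • ((1 - D)ᴴ * (1 + D) * (1 - D) + (1 + D)ᴴ * (1 - D) * (1 + D)) := by
      rw [conjTranspose_sub, conjTranspose_add, conjTranspose_one, hD]
      have : (1 - D) * (1 + D) * (1 - D) + (1 + D) * (1 - D) * (1 + D) = (2 : ℝ) • (1 - D * D) := by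
        rw [two_smul]; noncomm_ring
      rw [this, smul_smul]; norm_num
    rw [e]
    exact psd_rsmul ((hp.conjTranspose_mul_mul_same _).add (hm.conjTranspose_mul_mul_same _))
      (by norm_num)
  have h := hua hCc hD hDD
  have e1 : 1 + D + K = (1 + K) * (1 + C * D) := by
    rw [Matrix.mul_add, Matrix.mul_one, ← Matrix.mul_assoc, hLC, Matrix.one_mul]; abel
  have e2 : 1 - D + K = (1 + K) * (1 - C * D) := by
    rw [Matrix.mul_sub, Matrix.mul_one, ← Matrix.mul_assoc, hLC, Matrix.one_mul]; abel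
  have e3 : nd (1 + C * D) * nd (1 - C * D) = nd (1 - C * D * (C * D)) := by
    rw [← nd_mul]; congr 1; noncomm_ring
  have e4 : nd (1 + D) * nd (1 - D) = nd (1 - D * D) := by
    rw [← nd_mul]; congr 1; noncomm_ring
  rw [e1, e2, nd_mul, nd_mul, e4]
  calc nd (1 + K) ^ 2 * nd (1 - D * D) ≤ nd (1 + K) ^ 2 * nd (1 - C * D * (C * D)) :=
        mul_le_mul_of_nonneg_left h (sq_nonneg _)
    _ = _ := by rw [← e3]; ring

lemma mid {H H' K : Matrix α α ℂ} (hH : H.PosDef) (hH' : H'.PosDef) (hK : Kᴴ = -K) :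
    nd ((1 / 2 : ℝ) • (H + H') + K) ^ 2 * (nd H * nd H') ≤
      nd (H + K) * nd (H' + K) * nd ((1 / 2 : ℝ) • (H + H')) ^ 2 := by
  set M : Matrix α α ℂ := (1 / 2 : ℝ) • (H + H') with hM
  have hMp : M.PosDef := (hH.add hH').smul (by norm_num)
  obtain ⟨G, hG⟩ := exists_fac hMp.posSemidef
  have hGu : IsUnit G.det := by
    rw [← nd_pos_iff]
    have h := nd_posDef hMp
    rw [hG, nd_mul, nd_conjTranspose] at h
    rcases (nd_nonneg G).eq_or_lt with h0 | h0
    · rw [← h0] at h; simp at h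
    · exact h0
  set T : Matrix α α ℂ := G⁻¹ with hT
  have hGT : G * T = 1 := mul_nonsing_inv _ hGu
  have h1 : Tᴴ * M * T = 1 := by
    rw [hG]
    calc Tᴴ * (Gᴴ * G) * T = (G * T)ᴴ * (G * T) := by
          rw [conjTranspose_mul]; simp only [Matrix.mul_assoc]
      _ = 1 := by rw [hGT]; simp
  have hn : ∀ X : Matrix α α ℂ, nd (Tᴴ * X * T) = nd T ^ 2 * nd X := by
    intro X; rw [nd_mul, nd_mul, nd_conjTranspose]; ring
  set D : Matrix α α ℂ := Tᴴ * ((1 / 2 : ℝ) • (H - H')) * T with hD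
  have e1 : 1 + D = Tᴴ * H * T := by
    rw [← h1, hD, ← Matrix.add_mul, ← Matrix.mul_add, hM, ← smul_add]
    congr 2
    have : H + H' + (H - H') = (2 : ℝ) • H := by rw [two_smul]; abel
    rw [this, smul_smul]; norm_num
  have e2 : 1 - D = Tᴴ * H' * T := by
    rw [← h1, hD, ← Matrix.sub_mul, ← Matrix.mul_sub, hM, ← smul_sub]
    congr 2
    have : H + H' - (H - H') = (2 : ℝ) • H' := by rw [two_smul]; abel
    rw [this, smul_smul]; norm_num
  have hDh : Dᴴ = D := by
    have : D = Tᴴ * H * T - 1 := by rw [← e1]; abel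
    rw [this, conjTranspose_sub, conjTranspose_one]
    congr 1
    exact (hH.posSemidef.conjTranspose_mul_mul_same T).1
  have h := mid0 (K := Tᴴ * K * T) hDh (e1 ▸ hH.posSemidef.conjTranspose_mul_mul_same T)
    (e2 ▸ hH'.posSemidef.conjTranspose_mul_mul_same T) (by
      simp only [conjTranspose_mul, conjTranspose_conjTranspose, hK, Matrix.mul_assoc,
        Matrix.neg_mul, Matrix.mul_neg])
  rw [e1, e2] at h
  nth_rewrite 1 [← h1] at h
  simp only [← Matrix.add_mul, ← Matrix.mul_add, hn] at h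
  have h2 : nd T ^ 2 * nd M = 1 := by rw [← hn, h1, nd_one]
  have h3 := mul_le_mul_of_nonneg_left h (show 0 ≤ nd M ^ 4 by have := nd_nonneg M; positivity)
  have e3 : nd M ^ 4 * ((nd T ^ 2 * nd (M + K)) ^ 2 * (nd T ^ 2 * nd H * (nd T ^ 2 * nd H'))) =
      (nd T ^ 2 * nd M) ^ 4 * (nd (M + K) ^ 2 * (nd H * nd H')) := by ring
  have e4 : nd M ^ 4 * (nd T ^ 2 * nd (H + K) * (nd T ^ 2 * nd (H' + K))) =
      (nd T ^ 2 * nd M) ^ 2 * (nd (H + K) * nd (H' + K) * nd M ^ 2) := by ring
  rw [e3, e4, h2] at h3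
  simpa using h3

lemma le_of_sq_le_sq' {a b : ℝ} (h : a ^ 2 ≤ b ^ 2) (hb : 0 ≤ b) : a ≤ b :=
  (abs_le_of_sq_le_sq' h hb).2

/-- partial pinching -/
noncomputable def pin (π : α → β) (S : Finset β) (H : Matrix α α ℂ) : Matrix α α ℂ :=
  Matrix.of fun i j => if π i = π j ∨ (π i ∉ S ∧ π j ∉ S) then H i j else 0

lemma pinch (π : α → β) {H K : Matrix α α ℂ} (hH : H.PosDef) (hK : Kᴴ = -K)
    (hπ : ∀ i j, π i ≠ π j → K i j = 0) (S : Finset β) :
    (pin π S H).PosDef ∧ nd (pin π S H + K) * nd H ≤ nd (H + K) * nd (pin π S H) := by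
  induction S using Finset.induction_on with
  | empty =>
    have : pin π ∅ H = H := by ext i j; simp [pin]
    rw [this]; exact ⟨hH, le_rfl⟩
  | insert k S _ ih =>
    obtain ⟨h1, h2⟩ := ih
    set H1 := pin π S H with hH1
    set D : Matrix α α ℂ := dg fun i => if π i = k then -1 else 1 with hD
    have hDh : Dᴴ = D := dg_conjTranspose _
    have hDD : D * D = 1 := by
      rw [hD, dg_mul]
      have : (fun i => (if π i = k then (-1 : ℝ) else 1) * if π i = k then -1 else 1) = fun _ => 1 := by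
        ext i; split_ifs <;> norm_num
      rw [this]; simp [dg]
    have hDu : Uni D := ⟨by rw [hDh, hDD], by rw [hDh, hDD]⟩
    have hDK : Dᴴ * K * D = K := by
      rw [hDh]; ext i j
      simp only [hD, dg, mul_diagonal, diagonal_mul]
      by_cases h : π i = π j
      · rw [h]; split_ifs <;> simp
      · simp [hπ i j h]
    have h3 : (Dᴴ * H1 * D).PosDef := by
      refine h1.conjTranspose_mul_mul_same ?_
      exact mulVec_injective_iff_isUnit.mpr (IsUnit.of_mul_eq_one D hDD)
    have e : pin π (insert k S) H = (1 / 2 : ℝ) • (H1 + Dᴴ * H1 * D) := by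
      rw [hDh]; ext i j
      simp only [hD, hH1, dg, mul_diagonal, diagonal_mul, pin, of_apply, Matrix.smul_apply,
        Matrix.add_apply, Finset.mem_insert, not_or, Complex.real_smul]
      by_cases hij : π i = π j
      · simp only [hij, true_or, if_true]; split_ifs <;> push_cast <;> ring
      · by_cases hi : π i = k
        · have hj : ¬ π j = k := fun h => hij (hi.trans h.symm)
          have hj' : ¬ k = π j := fun h => hj h.symm
          simp only [hi, hj, hj', false_or, not_true_eq_false, false_and, if_true, if_false]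
          push_cast; ring
        · by_cases hj : π j = k
          · simp only [hi, hj, false_or, not_true_eq_false, false_and, and_false, if_true, if_false]
            push_cast; ring
          · simp only [hij, hi, hj, false_or, not_false_eq_true, true_and, if_false]
            push_cast; ring
    have hn : ∀ X : Matrix α α ℂ, nd (Dᴴ * X * D) = nd X := by
      intro X; rw [nd_mul, nd_mul, nd_conjTranspose, nd_uni hDu]; ring
    have h4 := mid h1 h3 hK
    rw [← e, hn] at h4
    have e2 : nd (Dᴴ * H1 * D + K) = nd (H1 + K) := by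
      rw [← hn (H1 + K), Matrix.mul_add, Matrix.add_mul, hDK]
    rw [e2] at h4
    have h5 : (pin π (insert k S) H).PosDef := by
      rw [e]; exact (h1.add h3).smul (by norm_num)
    refine ⟨h5, ?_⟩
    set a := nd (pin π (insert k S) H + K)
    set b := nd (pin π (insert k S) H)
    have ha : 0 ≤ a := nd_nonneg _
    have hb : 0 ≤ b := nd_nonneg _
    have hc := nd_posDef h1
    have hd := nd_nonneg (H1 + K)
    have he := nd_nonneg H
    have h6 : a * nd H1 ≤ nd (H1 + K) * b := by
      refine le_of_sq_le_sq' ?_ (mul_nonneg hd hb)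
      calc (a * nd H1) ^ 2 = a ^ 2 * (nd H1 * nd H1) := by ring
        _ ≤ _ := h4
        _ = _ := by ring
    refine le_of_mul_le_mul_right ?_ hc
    calc a * nd H * nd H1 = a * nd H1 * nd H := by ring
      _ ≤ nd (H1 + K) * b * nd H := mul_le_mul_of_nonneg_right h6 he
      _ = nd (H1 + K) * nd H * b := by ring
      _ ≤ nd (H + K) * nd H1 * b := mul_le_mul_of_nonneg_right h2 hb
      _ = _ := by ring

/-- rectangular diagonal matrix -/
noncomputable def rd (e : α → β) (s : α → ℝ) : Matrix α β ℂ :=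
  Matrix.of fun k j => if j = e k then (s k : ℂ) else 0

lemma diag_re {P : Matrix α α ℂ} (hP : P.IsHermitian) (i : α) : (((P i i).re : ℝ) : ℂ) = P i i := by
  have := hP.apply i i
  exact Complex.conj_eq_iff_re.mp this

lemma diag_pos {P : Matrix α α ℂ} (hP : P.PosDef) (i : α) : 0 < (P i i).re :=
  (Complex.pos_iff.mp (hP.diag_pos (i := i))).1

lemma rd_dg_rd {e : α → β} (he : Function.Injective e) (s : α → ℝ) (r : β → ℝ) :
    rd e s * dg r * (rd e s)ᴴ = dg fun k => s k ^ 2 * r (e k) := by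
  ext k l
  rw [Matrix.mul_apply]
  simp only [rd, dg, mul_diagonal, conjTranspose_apply,
    of_apply, diagonal_apply, ite_mul, zero_mul, Finset.sum_ite_eq', Finset.mem_univ, if_true]
  by_cases h : k = l
  · subst h; simp; ring
  · have : ¬ e k = e l := fun h' => h (he h')
    simp [h, this]

lemma dg_add (f g : α → ℝ) : dg f + dg g = dg fun i => f i + g i := by simp [dg]

lemma dg_inv {r : α → ℝ} (hr : ∀ i, 0 < r i) : (dg r)⁻¹ = dg fun i => (r i)⁻¹ := by
  apply inv_eq_right_inv
  rw [dg_mul]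
  have : (fun i => r i * (r i)⁻¹) = fun _ => 1 := by ext i; exact mul_inv_cancel₀ (hr i).ne'
  rw [this]; simp [dg]

lemma nd_blocks₁ {P : Matrix α α ℂ} (hP : 0 < nd P) (B : Matrix α β ℂ) (R : Matrix β β ℂ) :
    nd (fromBlocks P B (-Bᴴ) R) = nd P * nd (R + Bᴴ * P⁻¹ * B) := by
  have := invertibleOfIsUnitDet P ((nd_pos_iff P).mp hP)
  rw [nd, det_fromBlocks₁₁, invOf_eq_nonsing_inv, norm_mul, Matrix.neg_mul, Matrix.neg_mul,
    sub_neg_eq_add]; rfl

lemma nd_blocks₂ (P : Matrix α α ℂ) (B : Matrix α β ℂ) {R : Matrix β β ℂ} (hR : 0 < nd R) :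
    nd (fromBlocks P B (-Bᴴ) R) = nd R * nd (P + B * R⁻¹ * Bᴴ) := by
  have := invertibleOfIsUnitDet R ((nd_pos_iff R).mp hR)
  rw [nd, det_fromBlocks₂₂, invOf_eq_nonsing_inv, norm_mul, Matrix.mul_neg,
    sub_neg_eq_add]; rfl

lemma nd_blocks₀ (P : Matrix α α ℂ) (R : Matrix β β ℂ) :
    nd (fromBlocks P 0 0 R) = nd P * nd R := by
  rw [nd, det_fromBlocks_zero₂₁, norm_mul]; rfl

lemma posDef_blocks {P : Matrix α α ℂ} {R : Matrix β β ℂ} (hP : P.PosDef) (hR : R.PosDef) :
    (fromBlocks P 0 0 R).PosDef := by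
  obtain ⟨C, hC⟩ := exists_fac hP.posSemidef
  obtain ⟨D, hD⟩ := exists_fac hR.posSemidef
  have h : (fromBlocks P 0 0 R).PosSemidef := by
    have : fromBlocks P 0 0 R = (fromBlocks C 0 0 D)ᴴ * fromBlocks C 0 0 D := by
      rw [fromBlocks_conjTranspose, fromBlocks_multiply, hC, hD]; simp
    rw [this]; exact posSemidef_conjTranspose_mul_self _
  refine h.posDef_iff_isUnit.mpr ?_
  rw [isUnit_iff_isUnit_det, ← nd_pos_iff, nd_blocks₀]
  exact mul_pos (nd_posDef hP) (nd_posDef hR)

lemma det_ineq {e : α → β} (he : Function.Injective e) (s : α → ℝ) {P : Matrix α α ℂ}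
    {R : Matrix β β ℂ} (hP : P.PosDef) (hR : R.PosDef) :
    nd R * ∏ k, (1 + s k ^ 2 / ((P k k).re * (R (e k) (e k)).re)) ≤
      nd (R + (rd e s)ᴴ * P⁻¹ * rd e s) := by
  have h := (pinch (Sum.elim e id) (K := fromBlocks 0 (rd e s) (-(rd e s)ᴴ) 0)
    (posDef_blocks hP hR) (by simp [fromBlocks_conjTranspose, fromBlocks_neg]) (by
      rintro (i | i) (j | j) hij
      · simp
      · simp only [Sum.elim_inl, Sum.elim_inr, id] at hij
        simp [rd, Ne.symm hij]
      · simp only [Sum.elim_inl, Sum.elim_inr, id] at hij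
        simp [rd, hij]
      · simp) Finset.univ).2
  set p : α → ℝ := fun k => (P k k).re with hp
  set r : β → ℝ := fun j => (R j j).re with hr
  have hp0 : ∀ k, 0 < p k := diag_pos hP
  have hr0 : ∀ j, 0 < r j := diag_pos hR
  have e0 : pin (Sum.elim e id) Finset.univ (fromBlocks P 0 0 R) = fromBlocks (dg p) 0 0 (dg r) := by
    ext (i | i) (j | j)
    · by_cases hij : i = j
      · subst hij; simp [pin, dg, hp, diag_re hP.1]
      · have : ¬ e i = e j := fun h' => hij (he h')
        simp [pin, dg, hij, this]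
    · simp [pin]
    · simp [pin]
    · by_cases hij : i = j
      · subst hij; simp [pin, dg, hr, diag_re hR.1]
      · simp [pin, dg, hij]
  have hr1 : 0 < ∏ j, r j := Finset.prod_pos fun j _ => hr0 j
  have hp1 : 0 < ∏ k, p k := Finset.prod_pos fun j _ => hp0 j
  rw [e0, fromBlocks_add, fromBlocks_add] at h
  simp only [add_zero, zero_add] at h
  rw [nd_blocks₁ (nd_posDef hP), nd_blocks₂ _ _ (by rw [nd_dg fun j => (hr0 j).le]; exact hr1),
    nd_blocks₀, nd_blocks₀, dg_inv hr0, rd_dg_rd he, dg_add,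
    nd_dg fun j => (hr0 j).le, nd_dg fun j => (hp0 j).le,
    nd_dg (fun k : α => by have := hp0 k; have := hr0 (e k); positivity)] at h
  have e1 : ∏ k, (p k + s k ^ 2 * (r (e k))⁻¹) =
      (∏ k, p k) * ∏ k, (1 + s k ^ 2 / (p k * r (e k))) := by
    rw [← Finset.prod_mul_distrib]
    refine Finset.prod_congr rfl fun k _ => ?_
    have := hp0 k; have := hr0 (e k); field_simp
  rw [e1] at h
  have hP0 := nd_posDef hP
  refine le_of_mul_le_mul_right ?_ (mul_pos hP0 (mul_pos hp1 hr1))
  calc _ = (∏ j, r j) * ((∏ k, p k) * ∏ k, (1 + s k ^ 2 / (p k * r (e k)))) * (nd P * nd R) := by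
        ring
    _ ≤ _ := h
    _ = _ := by ring

/-- singular value decomposition -/
lemma exists_svd {e : α → β} (he : Function.Injective e) (a : Matrix α β ℂ) :
    ∃ (U : Matrix α α ℂ) (W : Matrix β β ℂ) (s : α → ℝ), Uni U ∧ Uni W ∧ Uᴴ * a * W = rd e s := by
  obtain ⟨U, f, hU, hf⟩ := exists_spec (posSemidef_self_mul_conjTranspose a).1
  have hf0 := sp_psd_iff hU (hf ▸ posSemidef_self_mul_conjTranspose a)
  set a' := Uᴴ * a with ha'
  have h1 : a' * a'ᴴ = dg f := by
    rw [ha', conjTranspose_mul, conjTranspose_conjTranspose, Matrix.mul_assoc,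
      ← Matrix.mul_assoc a, hf, sp]
    simp only [← Matrix.mul_assoc]
    rw [hU.1, Matrix.one_mul, Matrix.mul_assoc, hU.1, Matrix.mul_one]
  set s : α → ℝ := fun k => √(f k) with hs
  set V : Matrix β β ℂ := a'ᴴ * rd e fun k => (s k)⁻¹ with hV
  have hVe : ∀ i k, V i (e k) = star (a' k i) * ((s k)⁻¹ : ℝ) := by
    intro i k
    simp only [hV, rd, Matrix.mul_apply, conjTranspose_apply, of_apply, he.eq_iff, mul_ite,
      mul_zero, Finset.sum_ite_eq, Finset.mem_univ, if_true]
  let v : β → EuclideanSpace ℂ β := fun j => WithLp.toLp 2 fun i => V i j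
  have hv : Orthonormal ℂ (Set.domRestrict {j | ∃ k, 0 < f k ∧ e k = j} v) := by
    rw [orthonormal_iff_ite]
    rintro ⟨_, k, hk, rfl⟩ ⟨_, l, hl, rfl⟩
    have h2 := congrFun (congrFun h1 k) l
    simp only [Matrix.mul_apply, conjTranspose_apply, dg, diagonal_apply] at h2
    simp only [Set.domRestrict_apply, v, PiLp.inner_apply, hVe, Subtype.mk.injEq, he.eq_iff,
      RCLike.inner_apply, map_mul, Complex.conj_ofReal]
    have e3 : ∑ x, star (a' l x) * (((s l)⁻¹ : ℝ) : ℂ) *
        ((starRingEnd ℂ) (star (a' k x)) * (((s k)⁻¹ : ℝ) : ℂ)) =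
        (∑ x, a' k x * star (a' l x)) * (((s l)⁻¹ * (s k)⁻¹ : ℝ) : ℂ) := by
      rw [Finset.sum_mul]
      refine Finset.sum_congr rfl fun x _ => ?_
      simp only [RCLike.star_def, Complex.conj_conj]; push_cast; ring
    rw [e3, h2]
    split_ifs with h
    · subst h
      rw [← Complex.ofReal_mul, ← mul_inv, hs, Real.mul_self_sqrt hk.le, mul_inv_cancel₀ hk.ne']
      simp
    · simp
  obtain ⟨b, hb⟩ := hv.exists_orthonormalBasis_extension_of_card_eq (by simp)
  set W : Matrix β β ℂ := Matrix.of fun i j => b j i with hW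
  have hW1 : Wᴴ * W = 1 := by
    ext j l
    have := orthonormal_iff_ite.mp b.orthonormal j l
    simp only [PiLp.inner_apply, RCLike.inner_apply] at this
    simp only [hW, Matrix.mul_apply, conjTranspose_apply, of_apply, one_apply, ← this]
    exact Finset.sum_congr rfl fun x _ => by rw [mul_comm]; rfl
  refine ⟨U, W, s, hU, ⟨hW1, mul_eq_one_comm.mp hW1⟩, ?_⟩
  rw [← ha']
  ext k j
  rcases (hf0 k).eq_or_lt with h | h
  · have h2 := congrFun (congrFun h1 k) k
    have h3 : ∀ i, a' k i = 0 := by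
      have : (fun i => a' k i) ⬝ᵥ star (fun i => a' k i) = 0 := by
        simpa [Matrix.mul_apply, dg, ← h, dotProduct] using h2
      have := dotProduct_self_star_eq_zero.mp this
      exact fun i => congrFun this i
    simp [Matrix.mul_apply, h3, rd, hs, ← h]
  · have hs0 : 0 < s k := Real.sqrt_pos.mpr h
    have h3 : ∀ i, a' k i = (s k : ℂ) * star (W i (e k)) := by
      intro i
      have := congrArg (fun x : EuclideanSpace ℂ β => x i) (hb (e k) ⟨k, h, rfl⟩)
      simp only [v, hVe] at this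
      have hs1 : (s k : ℂ) ≠ 0 := by exact_mod_cast hs0.ne'
      simp only [hW, of_apply, this, star_mul', star_star, RCLike.star_def, Complex.conj_ofReal,
        Complex.conj_conj]
      push_cast; field_simp
    have h4 := congrFun (congrFun hW1 (e k)) j
    simp only [Matrix.mul_apply, conjTranspose_apply, one_apply] at h4
    simp only [Matrix.mul_apply, h3, mul_assoc, ← Finset.mul_sum, h4, rd, of_apply, eq_comm (a := j)]
    split_ifs <;> simp

end Crest.Agent.H5.AD
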