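import Crest.Agent.H5.AD.B2

set_option autoImplicit false
set_option linter.unusedSectionVars false
set_option linter.unusedSimpArgs false

namespace Crest.Agent.H5.AD

open Matrix Set Filter Crest.Agent.H5.PR Crest.Quantum
open scoped ComplexOrder MatrixOrder BigOperators Topology

local notation "η" => Real.negMulLog

lemma exists_roots {a b c : ℝ} (ha : 0 ≤ a) (hb : 0 ≤ b) (hc : 0 ≤ c) :
    ∃ x y : ℝ, 0 ≤ x ∧ 0 ≤ y ∧ x + y = a + b + c ∧ x * y = b * c := by
  have hd : 0 ≤ (a + b + c) ^ 2 - 4 * (b * c) := by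
    nlinarith [sq_nonneg (b - c), mul_nonneg ha hb, mul_nonneg ha hc, sq_nonneg a]
  have h1 := Real.sq_sqrt hd
  have h2 : √((a + b + c) ^ 2 - 4 * (b * c)) ≤ a + b + c :=
    Real.sqrt_le_iff.mpr ⟨by positivity, by nlinarith [mul_nonneg hb hc]⟩
  refine ⟨(a + b + c + √((a + b + c) ^ 2 - 4 * (b * c))) / 2,
    (a + b + c - √((a + b + c) ^ 2 - 4 * (b * c))) / 2, by positivity, by linarith, by ring, ?_⟩
  nlinarith

/-- the scalar kernel -/
noncomputable def psi (u b c : ℝ) : ℝ := Real.log (1 + u / ((u + b) * (u + c)))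

lemma log4 {a b c x y t : ℝ} (hb : 0 ≤ b) (hc : 0 ≤ c) (hx : 0 ≤ x) (hy : 0 ≤ y) (ht : 0 < t)
    (h1 : x + y = a + b + c) (h2 : x * y = b * c) :
    Real.log (1 + x / t) + Real.log (1 + y / t) - Real.log (1 + b / t) - Real.log (1 + c / t) =
      Real.log (1 + a * t / ((t + b) * (t + c))) := by
  have e : 1 + a * t / ((t + b) * (t + c)) =
      (1 + x / t) * (1 + y / t) / ((1 + b / t) * (1 + c / t)) := by
    have : (t + x) * (t + y) = (t + b) * (t + c) + a * t := by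
      linear_combination t * h1 + h2
    field_simp
    linarith
  rw [e, Real.log_div (by positivity) (by positivity), Real.log_mul (by positivity) (by positivity),
    Real.log_mul (by positivity) (by positivity)]
  ring

lemma eta_div (z : ℝ) {c : ℝ} (hc : 0 < c) : c * η (z / c) = η z + z * Real.log c := by
  have := Real.negMulLog_mul (z / c) c
  rw [div_mul_cancel₀ _ hc.ne'] at this
  have e3 : z / c * c.negMulLog = -(z * Real.log c) := by
    rw [Real.negMulLog]; field_simp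
  rw [this, e3]; ring

lemma repJ {a b c x y : ℝ} (ha : 0 ≤ a) (hb : 0 ≤ b) (hc : 0 ≤ c) (hx : 0 ≤ x) (hy : 0 ≤ y)
    (h1 : x + y = a + b + c) (h2 : x * y = b * c) :
    Rep (fun u => a * psi u (b / a) (c / a)) a (η x + η y - η a - η b - η c) := by
  rcases ha.eq_or_lt with rfl | ha
  · refine rep_zero.congr (fun t _ => by simp) rfl ?_
    have : (x - b) * (x - c) = 0 := by linear_combination x * h1 - h2
    rcases mul_eq_zero.mp this with h | h
    · have e1 : x = b := by linarith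
      have e2 : y = c := by linarith
      rw [e1, e2]; simp
    · have e1 : x = c := by linarith
      have e2 : y = b := by linarith
      rw [e1, e2]; simp
  · have h := ((((rep_log (x := x / a) (by positivity)).add
      (rep_log (x := y / a) (by positivity))).sub (rep_log (x := b / a) (by positivity))).sub
      (rep_log (x := c / a) (by positivity))).const_mul a
    refine h.congr (fun t ht => ?_) ?_ ?_
    · rw [log4 (a := 1) (by positivity) (by positivity) (by positivity) (by positivity) ht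
        (by field_simp; linarith) (by field_simp; linarith), psi, one_mul]
    · field_simp; linarith
    · rw [mul_sub, mul_sub, mul_add, eta_div _ ha, eta_div _ ha, eta_div _ ha, eta_div _ ha]
      have : η a = -a * Real.log a := rfl
      rw [this]
      linear_combination Real.log a * h1

lemma psi_tangent {u b c : ℝ} (hu : 0 < u) (hb : 0 ≤ b) (hc : 0 ≤ c) :
    ∃ θ : ℝ, 0 ≤ θ ∧ ∀ b' c' : ℝ, 0 ≤ b' → 0 ≤ c' →
      psi u b c - θ * ((b' - b) / (u + b) + (c' - c) / (u + c)) ≤ psi u b' c' := by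
  set E := u / ((u + b) * (u + c)) with hE
  have hE0 : 0 < E := by positivity
  refine ⟨E / (1 + E), by positivity, fun b' c' hb' hc' => ?_⟩
  set θ := E / (1 + E) with hθ
  have hθ0 : 0 ≤ θ := by positivity
  have hθ1 : 0 ≤ 1 - θ := by
    rw [hθ, sub_nonneg, div_le_one (by positivity)]; linarith
  set r := (u + b') / (u + b) with hr
  set s := (u + c') / (u + c) with hs
  have hr0 : 0 < r := by positivity
  have hs0 : 0 < s := by positivity
  have h1 := strictConcaveOn_log_Ioi.concaveOn.2 (x := 1) (y := (r * s)⁻¹)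
    (show (0 : ℝ) < 1 by norm_num) (show 0 < (r * s)⁻¹ by positivity) hθ1 hθ0 (by ring)
  simp only [smul_eq_mul, Real.log_one, mul_zero, zero_add, mul_one, Real.log_inv] at h1
  rw [Real.log_mul hr0.ne' hs0.ne'] at h1
  have e : 1 + u / ((u + b') * (u + c')) = (1 + E) * (1 - θ + θ * (r * s)⁻¹) := by
    rw [hθ, hr, hs, hE]; field_simp; ring
  have hp : 0 < 1 - θ + θ * (r * s)⁻¹ := by
    have : 0 < θ * (r * s)⁻¹ := by positivity
    linarith
  rw [psi, psi, e, Real.log_mul (by positivity) hp.ne', ← hE]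
  have h2 := Real.log_le_sub_one_of_pos hr0
  have h3 := Real.log_le_sub_one_of_pos hs0
  have e1 : (b' - b) / (u + b) = r - 1 := by rw [hr]; field_simp; ring
  have e2 : (c' - c) / (u + c) = s - 1 := by rw [hs]; field_simp; ring
  rw [e1, e2]
  nlinarith [mul_le_mul_of_nonneg_left (add_le_add h2 h3) hθ0]

lemma Jsub {ι : Type} [Fintype ι] {a b c x y : ι → ℝ} {B C X Y : ℝ} (ha : ∀ k, 0 ≤ a k)
    (hb : ∀ k, 0 ≤ b k) (hc : ∀ k, 0 ≤ c k) (hx : ∀ k, 0 ≤ x k) (hy : ∀ k, 0 ≤ y k)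
    (h1 : ∀ k, x k + y k = a k + b k + c k) (h2 : ∀ k, x k * y k = b k * c k)
    (hB : ∑ k, b k ≤ B) (hC : ∑ k, c k ≤ C) (hX : 0 ≤ X) (hY : 0 ≤ Y)
    (H1 : X + Y = ∑ k, a k + B + C) (H2 : X * Y = B * C) :
    η X + η Y - η (∑ k, a k) - η B - η C ≤
      ∑ k, (η (x k) + η (y k) - η (a k) - η (b k) - η (c k)) := by
  have hA : 0 ≤ ∑ k, a k := Finset.sum_nonneg fun k _ => ha k
  have hB0 : 0 ≤ B := (Finset.sum_nonneg fun k _ => hb k).trans hB
  have hC0 : 0 ≤ C := (Finset.sum_nonneg fun k _ => hc k).trans hC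
  refine (repJ hA hB0 hC0 hX hY H1 H2).mono (Rep.sum Finset.univ fun k _ =>
    repJ (ha k) (hb k) (hc k) (hx k) (hy k) (h1 k) (h2 k)) fun u hu => ?_
  rcases hA.eq_or_lt with h | hA
  · have : ∀ i, a i = 0 := fun i =>
      (Finset.sum_eq_zero_iff_of_nonneg fun i _ => ha i).mp h.symm i (Finset.mem_univ i)
    simp [this]
  set A := ∑ k, a k with hA'
  obtain ⟨θ, hθ, ht⟩ := psi_tangent (b := B / A) (c := C / A) hu
    (by positivity) (by positivity)
  have hp1 : 0 < u + B / A := by positivity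
  have hp2 : 0 < u + C / A := by positivity
  have key : ∀ k, a k * psi u (B / A) (C / A) -
      θ * ((b k - a k * (B / A)) / (u + B / A) + (c k - a k * (C / A)) / (u + C / A)) ≤
      a k * psi u (b k / a k) (c k / a k) := by
    intro k
    rcases (ha k).eq_or_lt with h | h
    · rw [← h]
      have := hb k; have := hc k
      simp only [zero_mul, sub_zero, zero_sub, neg_nonpos]
      positivity
    · have := mul_le_mul_of_nonneg_left (ht (b k / a k) (c k / a k)
        (div_nonneg (hb k) h.le) (div_nonneg (hc k) h.le)) h.le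
      refine le_of_eq_of_le ?_ this
      field_simp
  have h := Finset.sum_le_sum (s := Finset.univ) fun k _ => key k
  simp only [Finset.sum_sub_distrib, ← Finset.sum_mul, ← Finset.mul_sum, Finset.sum_add_distrib,
    ← Finset.sum_div] at h
  rw [← hA', mul_div_cancel₀ _ hA.ne', mul_div_cancel₀ _ hA.ne'] at h
  have h3 : (∑ k, b k - B) / (u + B / A) ≤ 0 := div_nonpos_of_nonpos_of_nonneg (by linarith) hp1.le
  have h4 : (∑ k, c k - C) / (u + C / A) ≤ 0 := div_nonpos_of_nonpos_of_nonneg (by linarith) hp2.le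
  nlinarith [mul_nonneg hθ (neg_nonneg.mpr (add_nonpos h3 h4))]

variable {α β γ δ : Type} [Fintype α] [Fintype β] [Fintype γ] [Fintype δ]
  [DecidableEq α] [DecidableEq β] [DecidableEq γ] [DecidableEq δ]

lemma posDef_one_add {B : Matrix α α ℂ} (hB : B.PosSemidef) {t : ℝ} (ht : 0 < t) :
    (1 + t⁻¹ • B).PosDef :=
  PosDef.one.add_posSemidef (psd_rsmul hB (inv_pos.mpr ht).le)

lemma nd_N (a b : Matrix α β ℂ) {P : Matrix α α ℂ} (hP : 0 < nd P) :
    nd (fromBlocks (P + a * aᴴ) (a * bᴴ) (b * aᴴ) (1 + b * bᴴ)) =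
      nd P * nd (1 + bᴴ * b + aᴴ * P⁻¹ * a) := by
  have hPu := (nd_pos_iff P).mp hP
  have e : fromBlocks (P + a * aᴴ) (a * bᴴ) (b * aᴴ) (1 + b * bᴴ) =
      fromBlocks P 0 0 1 + fromRows a b * fromCols aᴴ bᴴ := by
    rw [fromRows_mul_fromCols, fromBlocks_add]; simp
  have hu : IsUnit (fromBlocks P 0 0 (1 : Matrix α α ℂ)).det := by
    rw [← nd_pos_iff, nd_blocks₀, nd_one, mul_one]; exact hP
  have hi : (fromBlocks P 0 0 (1 : Matrix α α ℂ))⁻¹ = fromBlocks P⁻¹ 0 0 1 := by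
    apply inv_eq_right_inv
    rw [fromBlocks_multiply]; simp [mul_nonsing_inv _ hPu]
  rw [e, nd, det_add_mul _ _ hu, norm_mul, hi, fromCols_mul_fromBlocks, fromCols_mul_fromRows]
  have := nd_blocks₀ P (1 : Matrix α α ℂ)
  rw [nd_one, mul_one, nd] at this
  rw [this]
  congr 1
  simp only [Matrix.mul_zero, add_zero, zero_add, Matrix.mul_one, nd]
  congr 2; abel

lemma rd_smul (e : α → β) (c : ℝ) (s : α → ℝ) : c • rd e s = rd e fun k => c * s k := by
  ext k j; simp only [rd, Matrix.smul_apply, of_apply]; split_ifs <;> simp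

lemma uni_conj_posDef {U P : Matrix α α ℂ} (hU : Uni U) (hP : P.PosDef) : (Uᴴ * P * U).PosDef :=
  hP.conjTranspose_mul_mul_same (mulVec_injective_iff_isUnit.mpr (IsUnit.of_mul_eq_one _ hU.2))

lemma nd_conj {U : Matrix α α ℂ} (hU : Uni U) (X : Matrix α α ℂ) : nd (Uᴴ * X * U) = nd X := by
  rw [nd_mul, nd_mul, nd_conjTranspose, nd_uni hU]; ring

lemma de_one_add {U : Matrix α α ℂ} (hU : Uni U) (B : Matrix α α ℂ) (t : ℝ) (i : α) :
    ((Uᴴ * (1 + t⁻¹ • B) * U) i i).re = 1 + de U B i / t := by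
  rw [Matrix.mul_add, Matrix.add_mul, Matrix.mul_one, hU.1, Matrix.mul_smul, Matrix.smul_mul, de]
  simp only [Matrix.add_apply, Matrix.smul_apply, one_apply_eq, Complex.add_re, Complex.one_re,
    Complex.smul_re, smul_eq_mul]
  ring

lemma Lg_ineq {e : α → β} (he : Function.Injective e) {a : Matrix α β ℂ} (b : Matrix α β ℂ)
    {U : Matrix α α ℂ} {W : Matrix β β ℂ} {s : α → ℝ} (hU : Uni U) (hW : Uni W)
    (ha : Uᴴ * a * W = rd e s) {B : Matrix α α ℂ} (hB : B.PosSemidef) {t : ℝ} (ht : 0 < t) :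
    Lg B t + Lg (bᴴ * b) t +
      ∑ k, Real.log (1 + s k ^ 2 * t / ((t + de W (bᴴ * b) (e k)) * (t + de U B k))) ≤
      Lg (fromBlocks (a * aᴴ + B) (a * bᴴ) (b * aᴴ) (b * bᴴ)) t := by
  set c := √(t⁻¹) with hc
  have hcc : c * c = t⁻¹ := Real.mul_self_sqrt (inv_pos.mpr ht).le
  have hm : ∀ x y : Matrix α β ℂ, (c • x) * (c • y)ᴴ = t⁻¹ • (x * yᴴ) := by
    intro x y
    rw [conjTranspose_smul, star_trivial, Matrix.smul_mul, Matrix.mul_smul, smul_smul, hcc]
  have hm' : (c • b)ᴴ * (c • b) = t⁻¹ • (bᴴ * b) := by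
    rw [conjTranspose_smul, star_trivial, Matrix.smul_mul, Matrix.mul_smul, smul_smul, hcc]
  have hP := posDef_one_add hB ht
  have hR := posDef_one_add (posSemidef_conjTranspose_mul_self b) ht
  set P := 1 + t⁻¹ • B with hPd
  set R := 1 + t⁻¹ • (bᴴ * b) with hRd
  have e1 : 1 + t⁻¹ • fromBlocks (a * aᴴ + B) (a * bᴴ) (b * aᴴ) (b * bᴴ) =
      fromBlocks (P + (c • a) * (c • a)ᴴ) ((c • a) * (c • b)ᴴ) ((c • b) * (c • a)ᴴ)
        (1 + (c • b) * (c • b)ᴴ) := by
    rw [hm, hm, hm, hm, fromBlocks_smul, ← fromBlocks_one, fromBlocks_add, hPd]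
    simp only [zero_add, smul_add]
    congr 1; abel
  have h1 := det_ineq he (fun k => c * s k) (uni_conj_posDef hU hP) (uni_conj_posDef hW hR)
  have hi : (Uᴴ * P * U)⁻¹ = Uᴴ * P⁻¹ * U := by
    apply inv_eq_right_inv
    simp only [Matrix.mul_assoc]
    rw [← Matrix.mul_assoc U, hU.2, Matrix.one_mul, ← Matrix.mul_assoc P,
      mul_nonsing_inv _ ((nd_pos_iff P).mp (nd_posDef hP)), Matrix.one_mul, hU.1]
  have e2 : Wᴴ * R * W + (rd e fun k => c * s k)ᴴ * (Uᴴ * P * U)⁻¹ * (rd e fun k => c * s k) =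
      Wᴴ * (R + (c • a)ᴴ * P⁻¹ * (c • a)) * W := by
    rw [hi, ← rd_smul, ← ha, ← Matrix.smul_mul, ← Matrix.mul_smul, Matrix.mul_add Wᴴ R,
      Matrix.add_mul (Wᴴ * R)]
    congr 1
    simp only [conjTranspose_mul, conjTranspose_conjTranspose, Matrix.mul_assoc]
    rw [← Matrix.mul_assoc U Uᴴ, hU.2, Matrix.one_mul, ← Matrix.mul_assoc U Uᴴ, hU.2,
      Matrix.one_mul]
  rw [e2, nd_conj hW, nd_conj hW] at h1
  simp only [hPd, hRd, de_one_add hU, de_one_add hW] at h1
  rw [← hPd, ← hRd] at h1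
  have hd1 := fun k => de_nonneg W (posSemidef_conjTranspose_mul_self b) (e k)
  have hd2 := de_nonneg U hB
  have e3 : ∀ k, 1 + (c * s k) ^ 2 / ((1 + de U B k / t) * (1 + de W (bᴴ * b) (e k) / t)) =
      1 + s k ^ 2 * t / ((t + de W (bᴴ * b) (e k)) * (t + de U B k)) := by
    intro k
    have := hd1 k; have := hd2 k
    rw [mul_pow, sq c, hcc]; field_simp
  simp only [e3] at h1
  have hpos : ∀ k, 0 < 1 + s k ^ 2 * t / ((t + de W (bᴴ * b) (e k)) * (t + de U B k)) := by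
    intro k
    have := hd1 k; have := hd2 k
    positivity
  have hpp : 0 < ∏ k, (1 + s k ^ 2 * t / ((t + de W (bᴴ * b) (e k)) * (t + de U B k))) :=
    Finset.prod_pos fun k _ => hpos k
  rw [Lg, Lg, Lg, e1, nd_N _ _ (nd_posDef hP), hm', ← hPd, ← hRd,
    ← Real.log_prod fun k _ => (hpos k).ne', add_assoc,
    ← Real.log_mul (nd_posDef hR).ne' hpp.ne',
    ← Real.log_mul (nd_posDef hP).ne' (mul_pos (nd_posDef hR) hpp).ne']
  exact Real.log_le_log (mul_pos (nd_posDef hP) (mul_pos (nd_posDef hR) hpp))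
    (mul_le_mul_of_nonneg_left h1 (nd_nonneg P))

lemma rt_blocks (A : Matrix α α ℂ) (B : Matrix α β ℂ) (C : Matrix β α ℂ) (D : Matrix β β ℂ) :
    rt (fromBlocks A B C D) = rt A + rt D := by
  simp [rt, trace, Fintype.sum_sum_type]

lemma psd_N (a b : Matrix α β ℂ) {B : Matrix α α ℂ} (hB : B.PosSemidef) :
    (fromBlocks (a * aᴴ + B) (a * bᴴ) (b * aᴴ) (b * bᴴ)).PosSemidef := by
  obtain ⟨C, hC⟩ := exists_fac hB
  have e : fromBlocks (a * aᴴ + B) (a * bᴴ) (b * aᴴ) (b * bᴴ) =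
      fromRows a b * (fromRows a b)ᴴ +
        fromRows Cᴴ (0 : Matrix α α ℂ) * (fromRows Cᴴ (0 : Matrix α α ℂ))ᴴ := by
    rw [conjTranspose_fromRows_eq_fromCols_conjTranspose,
      conjTranspose_fromRows_eq_fromCols_conjTranspose, fromRows_mul_fromCols,
      fromRows_mul_fromCols, fromBlocks_add, hC]
    simp
  rw [e]
  exact (posSemidef_self_mul_conjTranspose _).add (posSemidef_self_mul_conjTranspose _)

lemma stepA0 {e : α → β} (he : Function.Injective e) (a b : Matrix α β ℂ)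
    {B : Matrix α α ℂ} (hB : B.PosSemidef) {X Y : ℝ} (hX : 0 ≤ X) (hY : 0 ≤ Y)
    (H1 : X + Y = rt (a * aᴴ) + rt (b * bᴴ) + rt B) (H2 : X * Y = rt (b * bᴴ) * rt B) :
    Sh (a * aᴴ) + Sh (b * bᴴ) + Sh B + η X + η Y ≤
      vnEntropy (fromBlocks (a * aᴴ + B) (a * bᴴ) (b * aᴴ) (b * bᴴ)) := by
  obtain ⟨U, W, s, hU, hW, ha⟩ := exists_svd he a
  have haa : a * aᴴ = sp U fun k => s k ^ 2 := by
    have h := rd_dg_rd he s fun _ => 1
    have h1 : (dg fun _ => 1 : Matrix β β ℂ) = 1 := by simp [dg]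
    rw [h1, Matrix.mul_one, ← ha] at h
    simp only [mul_one] at h
    rw [sp, ← h]
    simp only [conjTranspose_mul, conjTranspose_conjTranspose, Matrix.mul_assoc]
    rw [hU.2, Matrix.mul_one, ← Matrix.mul_assoc W, hW.2, Matrix.one_mul, ← Matrix.mul_assoc U,
      hU.2, Matrix.one_mul]
  have hd1 := de_nonneg W (posSemidef_conjTranspose_mul_self b)
  have hd2 := de_nonneg U hB
  choose x y hx hy h1 h2 using fun k => exists_roots (sq_nonneg (s k)) (hd1 (e k)) (hd2 k)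
  have hs1 : rt (a * aᴴ) = ∑ k, s k ^ 2 := by rw [haa, rt_sp hU]
  have hs2 : vnEntropy (a * aᴴ) = ∑ k, η (s k ^ 2) := by rw [haa, ent_sp hU fun k => sq_nonneg _]
  have hbs : ∑ k, de W (bᴴ * b) (e k) ≤ rt (b * bᴴ) := by
    rw [rt_comm, ← sum_de hW, ← Finset.sum_image (f := de W (bᴴ * b)) (fun _ _ _ _ h => he h)]
    exact Finset.sum_le_sum_of_subset_of_nonneg (Finset.subset_univ _) fun j _ _ => hd1 j
  have hJ := Jsub (fun k => sq_nonneg (s k)) (fun k => hd1 (e k)) hd2 hx hy h1 h2 hbs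
    (sum_de hU B).le hX hY (by rw [H1, hs1]) H2
  have hr := ((rep_ent hB).add (rep_ent (posSemidef_conjTranspose_mul_self b))).add
    (Rep.sum Finset.univ fun k _ => (((rep_log (hx k)).add (rep_log (hy k))).sub
      (rep_log (hd1 (e k)))).sub (rep_log (hd2 k)))
  have hm := (hr.congr (fun _ _ => rfl) (m' := rt (fromBlocks (a * aᴴ + B) (a * bᴴ) (b * aᴴ)
    (b * bᴴ))) ?_ rfl).mono (rep_ent (psd_N a b hB)) ?_
  · rw [← ent_comm] at hm
    simp only [Finset.sum_sub_distrib, Finset.sum_add_distrib] at hm hJ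
    rw [Sh, Sh, Sh, hs1, hs2]
    linarith
  · rw [rt_blocks, rt_add, hs1, rt_comm bᴴ]
    have : ∀ k, x k + y k - de W (bᴴ * b) (e k) - de U B k = s k ^ 2 := fun k => by
      linarith [h1 k]
    simp only [this]; ring
  · intro t ht
    refine le_of_eq_of_le ?_ (Lg_ineq he b hU hW ha hB ht)
    congr 1
    exact Finset.sum_congr rfl fun k _ => log4 (hd1 _) (hd2 _) (hx k) (hy k) ht (h1 k) (h2 k)

lemma exists_ab {X Y Z : Matrix α α ℂ} {Y' : Matrix α α ℂ} (h : (fromBlocks X Y Y' Z).PosSemidef) :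
    ∃ a b : Matrix α (α ⊕ α) ℂ, X = a * aᴴ ∧ Y = a * bᴴ ∧ Y' = b * aᴴ ∧ Z = b * bᴴ := by
  obtain ⟨C, hC⟩ := exists_fac h
  refine ⟨Cᴴ.toRows₁, Cᴴ.toRows₂, ?_⟩
  rw [← fromBlocks_inj, ← fromRows_mul_fromCols, ← conjTranspose_fromRows_eq_fromCols_conjTranspose,
    fromRows_toRows, conjTranspose_conjTranspose, hC]

end Crest.Agent.H5.AD
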