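import Crest.Agent.H5.AD.B3
import Crest.Prelude.Def_AmpDamp

set_option autoImplicit false
set_option linter.unusedSectionVars false
set_option linter.unusedSimpArgs false

namespace Crest.Agent.H5.AD

open Matrix Set Filter Crest.Agent.H5.PR Crest.Quantum
open scoped ComplexOrder MatrixOrder BigOperators Topology

local notation "η" => Real.negMulLog

variable {α β γ δ : Type} [Fintype α] [Fintype β] [Fintype γ] [Fintype δ]
  [DecidableEq α] [DecidableEq β] [DecidableEq γ] [DecidableEq δ]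

lemma blocks_psd {X Y Y' Z : Matrix α α ℂ} (h : (fromBlocks X Y Y' Z).PosSemidef) :
    X.PosSemidef ∧ Z.PosSemidef := by
  obtain ⟨a, b, rfl, -, -, rfl⟩ := exists_ab h
  exact ⟨posSemidef_self_mul_conjTranspose _, posSemidef_self_mul_conjTranspose _⟩

lemma smul_mul_adj (c d : ℝ) (x y : Matrix α β ℂ) : (c • x) * (d • y)ᴴ = (c * d) • (x * yᴴ) := by
  rw [conjTranspose_smul, star_trivial, Matrix.smul_mul, Matrix.mul_smul, smul_smul]

lemma psdA1 {X Y Y' Z : Matrix α α ℂ} (h : (fromBlocks X Y Y' Z).PosSemidef) (k0 k1 : ℝ) {b : ℝ}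
    (hb : 0 ≤ b) : (fromBlocks ((k0 * k0) • X + b • Z) ((k0 * k1) • Y) ((k0 * k1) • Y')
      ((k1 * k1) • Z)).PosSemidef := by
  have hZ := (blocks_psd h).2
  obtain ⟨a, c, hX, hY, hY', hZ'⟩ := exists_ab h
  have := psd_N (k0 • a) (k1 • c) (psd_rsmul hZ hb)
  rwa [smul_mul_adj, smul_mul_adj, smul_mul_adj, smul_mul_adj, ← hX, ← hY, ← hY', ← hZ',
    mul_comm k1 k0] at this

lemma stepA1 {X Y Y' Z : Matrix α α ℂ} (h : (fromBlocks X Y Y' Z).PosSemidef) (k0 k1 : ℝ)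
    {b τ x y : ℝ} (hb : 0 ≤ b) (hx : 0 ≤ x) (hy : 0 ≤ y) (hxy : x + y = 1)
    (hτ : τ = k0 * k0 * rt X + k1 * k1 * rt Z + b * rt Z)
    (hd : τ ^ 2 * (x * y) = k1 * k1 * rt Z * (b * rt Z)) :
    τ * (η x + η y) + k0 * k0 * Sh X + (k1 * k1 + b) * Sh Z ≤
      Sh (fromBlocks ((k0 * k0) • X + b • Z) ((k0 * k1) • Y) ((k0 * k1) • Y') ((k1 * k1) • Z)) := by
  obtain ⟨hX0, hZ0⟩ := blocks_psd h
  obtain ⟨a, c, hX, hY, hY', hZ'⟩ := exists_ab h
  have hτ0 : 0 ≤ τ := by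
    have := rt_nonneg hX0; have := rt_nonneg hZ0
    have := mul_self_nonneg k0; have := mul_self_nonneg k1
    rw [hτ]; positivity
  have := stepA0 (e := Sum.inl) Sum.inl_injective (k0 • a) (k1 • c) (psd_rsmul hZ0 hb)
    (X := τ * x) (Y := τ * y) (mul_nonneg hτ0 hx) (mul_nonneg hτ0 hy)
  rw [smul_mul_adj, smul_mul_adj, smul_mul_adj, smul_mul_adj, ← hX, ← hY, ← hY', ← hZ',
    mul_comm k1 k0, rt_smul, rt_smul, rt_smul, Sh_smul hX0 (mul_self_nonneg _),
    Sh_smul hZ0 (mul_self_nonneg _), Sh_smul hZ0 hb] at this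
  have h2 := this (by rw [← mul_add, hxy, mul_one, hτ]) (by rw [← hd]; ring)
  rw [Sh.eq_1 (fromBlocks _ _ _ _), rt_blocks, rt_add, rt_smul, rt_smul, rt_smul]
  have e : k0 * k0 * rt X + b * rt Z + k1 * k1 * rt Z = τ := by rw [hτ]; ring
  rw [e]
  rw [Real.negMulLog_mul, Real.negMulLog_mul] at h2
  have : x * η τ + y * η τ = η τ := by rw [← add_mul, hxy, one_mul]
  linarith

lemma blocks_swap (X Y Y' Z : Matrix α α ℂ) :
    fromBlocks Z Y' Y X = (fromBlocks X Y Y' Z).submatrix (Equiv.sumComm α α) (Equiv.sumComm α α) := by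
  ext (i | i) (j | j) <;> rfl

lemma psd_swap {X Y Y' Z : Matrix α α ℂ} (h : (fromBlocks X Y Y' Z).PosSemidef) :
    (fromBlocks Z Y' Y X).PosSemidef := by
  rw [blocks_swap]; exact h.submatrix _

lemma Sh_swap {X Y Y' Z : Matrix α α ℂ} (h : (fromBlocks X Y Y' Z).PosSemidef) :
    Sh (fromBlocks Z Y' Y X) = Sh (fromBlocks X Y Y' Z) := by
  rw [blocks_swap, Sh, Sh, ent_submatrix h, rt_submatrix]

/-- the determinant function -/
noncomputable def vv (g n p : ℝ) : ℝ := g * n * (1 - n) + g * (1 - g) * (p - n) ^ 2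

/-- the output entropy of a pure state of population `p` -/
noncomputable def ff (g n p : ℝ) : ℝ := Real.binEntropy ((1 + √(1 - 4 * vv g n p)) / 2)

lemma vv_nonneg {g n : ℝ} (hg : g ∈ Icc (0 : ℝ) 1) (hn : n ∈ Icc (0 : ℝ) 1) (p : ℝ) :
    0 ≤ vv g n p := by
  have h1 := hg.1; have h2 := sub_nonneg.mpr hg.2; have h3 := hn.1; have h4 := sub_nonneg.mpr hn.2
  unfold vv; positivity

lemma vv_le {g : ℝ} (hg : g ∈ Icc (0 : ℝ) 1) (n : ℝ) {p : ℝ} (hp : p ∈ Icc (0 : ℝ) 1) :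
    4 * vv g n p ≤ 1 := by
  have h2 := sub_nonneg.mpr hg.2; have h3 := hp.1; have h4 := sub_nonneg.mpr hp.2
  have e : 1 - 4 * vv g n p = (1 - 2 * ((1 - g) * p + g * n)) ^ 2 + 4 * ((1 - g) * p * (1 - p)) := by
    unfold vv; ring
  have : 0 ≤ (1 - g) * p * (1 - p) := by positivity
  nlinarith [sq_nonneg (1 - 2 * ((1 - g) * p + g * n))]

lemma exists_xy {g n p : ℝ} (hg : g ∈ Icc (0 : ℝ) 1) (hn : n ∈ Icc (0 : ℝ) 1)
    (hp : p ∈ Icc (0 : ℝ) 1) :
    ∃ x y : ℝ, 0 ≤ x ∧ 0 ≤ y ∧ x + y = 1 ∧ x * y = vv g n p ∧ ff g n p = η x + η y := by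
  have h1 := vv_nonneg hg hn p
  have h2 := vv_le hg n hp
  have h3 := Real.sq_sqrt (show 0 ≤ 1 - 4 * vv g n p by linarith)
  have h4 : √(1 - 4 * vv g n p) ≤ 1 := Real.sqrt_le_one.mpr (by linarith)
  refine ⟨(1 + √(1 - 4 * vv g n p)) / 2, 1 - (1 + √(1 - 4 * vv g n p)) / 2, by positivity,
    by linarith, by ring, by nlinarith, ?_⟩
  rw [ff, Real.binEntropy_eq_negMulLog_add_negMulLog_one_sub]

lemma exists_params {g n : ℝ} (hg : g ∈ Icc (0 : ℝ) 1) (hn : n ∈ Icc (0 : ℝ) 1) (p : ℝ) :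
    ∃ k0 k1 l0 l1 : ℝ, k0 * k0 + l0 * l0 = 1 - g * n ∧ k1 * k1 + l1 * l1 = 1 - g + g * n ∧
      k0 * k1 + l1 * l0 = √(1 - g) ∧
      (k0 * k0 * (1 - p) + k1 * k1 * p + g * (1 - n) * p) ^ 2 * vv g n p =
        k1 * k1 * p * (g * (1 - n) * p) ∧
      (l1 * l1 * p + l0 * l0 * (1 - p) + g * n * (1 - p)) ^ 2 * vv g n p =
        l0 * l0 * (1 - p) * (g * n * (1 - p)) := by
  have h1 := hg.1; have h2 := sub_nonneg.mpr hg.2; have h3 := hn.1; have h4 := sub_nonneg.mpr hn.2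
  set L := √(1 - g) with hL
  have hLL : L * L = 1 - g := Real.mul_self_sqrt h2
  set w := n * (1 - n) + (1 - g) * (p - n) ^ 2 with hw
  have hv : vv g n p = g * w := by rw [hw, vv]; ring
  have hw0 : 0 ≤ w := by positivity
  rcases hw0.eq_or_lt with h0 | h0
  · have ha : n * (1 - n) = 0 := by
      have : 0 ≤ (1 - g) * (p - n) ^ 2 := by positivity
      have : 0 ≤ n * (1 - n) := by positivity
      linarith
    have hb : (1 - g) * (p - n) ^ 2 = 0 := by linarith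
    rw [hv, ← h0]
    rcases mul_eq_zero.mp ha with h | h
    · subst h
      refine ⟨1, L, 0, 0, by ring, by linarith, by ring, ?_, by ring⟩
      rw [hLL]; linear_combination (-g) * hb
    · have : n = 1 := by linarith
      subst this
      refine ⟨0, 0, L, 1, by linarith, by ring, by ring, by ring, ?_⟩
      rw [hLL]; linear_combination (-g) * hb
  · set A := √((1 - n) / w) with hA
    set B := √(n / w) with hB
    have hAA : A * A = (1 - n) / w := Real.mul_self_sqrt (by positivity)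
    have hBB : B * B = n / w := Real.mul_self_sqrt (by positivity)
    set P := (1 - g) * p + g * n with hP
    have e0 : A * L * p * (A * L * p) = (1 - n) / w * (1 - g) * p ^ 2 := by
      rw [← hAA, ← hLL]; ring
    have e1 : A * P * (A * P) = (1 - n) / w * P ^ 2 := by rw [← hAA]; ring
    have e2 : B * (1 - P) * (B * (1 - P)) = n / w * (1 - P) ^ 2 := by rw [← hBB]; ring
    have e3 : B * L * (1 - p) * (B * L * (1 - p)) = n / w * (1 - g) * (1 - p) ^ 2 := by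
      rw [← hBB, ← hLL]; ring
    refine ⟨A * L * p, A * P, B * (1 - P), B * L * (1 - p), ?_, ?_, ?_, ?_, ?_⟩
    · rw [e0, e2]; field_simp; rw [hP, hw]; ring
    · rw [e1, e3]; field_simp; rw [hP, hw]; ring
    · have : A * L * p * (A * P) + B * L * (1 - p) * (B * (1 - P)) =
          L * ((A * A) * p * P + (B * B) * (1 - p) * (1 - P)) := by ring
      rw [this, hAA, hBB]
      have : (1 - n) / w * p * P + n / w * (1 - p) * (1 - P) = 1 := by
        field_simp; rw [hP, hw]; ring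
      rw [this, mul_one]
    · have : (1 - n) / w * (1 - g) * p ^ 2 * (1 - p) + (1 - n) / w * P ^ 2 * p + g * (1 - n) * p =
          (1 - n) * p * P / w := by
        field_simp; rw [hP, hw]; ring
      rw [e0, e1, this, hv]; field_simp
    · have : n / w * (1 - g) * (1 - p) ^ 2 * p + n / w * (1 - P) ^ 2 * (1 - p) + g * n * (1 - p) =
          n * (1 - p) * (1 - P) / w := by
        field_simp; rw [hP, hw]; ring
      rw [e3, e2, this, hv]; field_simp

/-- the output in block form -/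
noncomputable def gb (g n : ℝ) (X Y Y' Z : Matrix α α ℂ) : Matrix (α ⊕ α) (α ⊕ α) ℂ :=
  fromBlocks ((1 - g * n) • X + (g * (1 - n)) • Z) (√(1 - g) • Y) (√(1 - g) • Y')
    ((g * n) • X + (1 - g + g * n) • Z)

lemma gb_split {g n k0 k1 l0 l1 : ℝ} (h1 : k0 * k0 + l0 * l0 = 1 - g * n)
    (h2 : k1 * k1 + l1 * l1 = 1 - g + g * n) (h3 : k0 * k1 + l1 * l0 = √(1 - g))
    (X Y Y' Z : Matrix α α ℂ) :
    gb g n X Y Y' Z =
      fromBlocks ((k0 * k0) • X + (g * (1 - n)) • Z) ((k0 * k1) • Y) ((k0 * k1) • Y')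
        ((k1 * k1) • Z) +
      fromBlocks ((l0 * l0) • X) ((l1 * l0) • Y) ((l1 * l0) • Y') ((l1 * l1) • Z + (g * n) • X) := by
  rw [gb, fromBlocks_add, ← h1, ← h2, ← h3]
  simp only [add_smul]
  congr 1 <;> abel

lemma gb_psd {g n : ℝ} (hg : g ∈ Icc (0 : ℝ) 1) (hn : n ∈ Icc (0 : ℝ) 1) {X Y Y' Z : Matrix α α ℂ}
    (h : (fromBlocks X Y Y' Z).PosSemidef) : (gb g n X Y Y' Z).PosSemidef := by
  obtain ⟨k0, k1, l0, l1, h1, h2, h3, -⟩ := exists_params hg hn 0
  rw [gb_split h1 h2 h3]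
  exact (psdA1 h k0 k1 (mul_nonneg hg.1 (sub_nonneg.mpr hn.2))).add
    (psd_swap (psdA1 (psd_swap h) l1 l0 (mul_nonneg hg.1 hn.1)))

lemma rt_gb (g n : ℝ) (X Y Y' Z : Matrix α α ℂ) : rt (gb g n X Y Y' Z) = rt X + rt Z := by
  rw [gb, rt_blocks, rt_add, rt_add, rt_smul, rt_smul, rt_smul, rt_smul]; ring

/-- the key inequality -/
lemma key {g n : ℝ} (hg : g ∈ Icc (0 : ℝ) 1) (hn : n ∈ Icc (0 : ℝ) 1) {X Y Y' Z : Matrix α α ℂ}
    (h : (fromBlocks X Y Y' Z).PosSemidef) (ht : rt X + rt Z = 1) :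
    ff g n (rt Z) + Sh X + Sh Z ≤ vnEntropy (gb g n X Y Y' Z) := by
  obtain ⟨hX0, hZ0⟩ := blocks_psd h
  have hp : rt Z ∈ Icc (0 : ℝ) 1 := ⟨rt_nonneg hZ0, by linarith [rt_nonneg hX0]⟩
  obtain ⟨k0, k1, l0, l1, h1, h2, h3, h4, h5⟩ := exists_params hg hn (rt Z)
  obtain ⟨x, y, hx, hy, hxy, hv, hf⟩ := exists_xy hg hn hp
  have hq : 1 - rt Z = rt X := by linarith
  rw [hq, ← hv] at h4 h5
  have hb1 := mul_nonneg hg.1 (sub_nonneg.mpr hn.2)
  have hb2 := mul_nonneg hg.1 hn.1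
  have a1 := stepA1 h k0 k1 hb1 hx hy hxy rfl h4
  have a2 := stepA1 (psd_swap h) l1 l0 hb2 hx hy hxy rfl h5
  have p1 := psdA1 h k0 k1 hb1
  have p2 := psdA1 (psd_swap h) l1 l0 hb2
  rw [← Sh_swap p2] at a2
  have a3 := Sh_add p1 (psd_swap p2)
  rw [← gb_split h1 h2 h3, Sh, Sh, Sh, rt_gb, ht, Real.negMulLog_one, sub_zero] at a3
  rw [Sh.eq_1 (fromBlocks _ _ _ _)] at a1 a2
  rw [hf]
  have e1 : k0 * k0 * rt X + k1 * k1 * rt Z + g * (1 - n) * rt Z +
      (l1 * l1 * rt Z + l0 * l0 * rt X + g * n * rt X) = 1 := by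
    linear_combination rt X * h1 + rt Z * h2 + ht
  have e2 : k0 * k0 + (l0 * l0 + g * n) = 1 := by linarith
  have e3 : k1 * k1 + g * (1 - n) + l1 * l1 = 1 := by linarith
  calc η x + η y + Sh X + Sh Z =
        (k0 * k0 * rt X + k1 * k1 * rt Z + g * (1 - n) * rt Z +
          (l1 * l1 * rt Z + l0 * l0 * rt X + g * n * rt X)) * (η x + η y) +
        (k0 * k0 + (l0 * l0 + g * n)) * Sh X + (k1 * k1 + g * (1 - n) + l1 * l1) * Sh Z := by
        rw [e1, e2, e3]; ring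
    _ ≤ _ := by linarith

/-- subadditivity in block form -/
lemma subadd {X Y Y' Z : Matrix α α ℂ} (h : (fromBlocks X Y Y' Z).PosSemidef) :
    vnEntropy (fromBlocks X Y Y' Z) ≤ η (rt X) + η (rt Z) + Sh (X + Z) := by
  obtain ⟨hX0, hZ0⟩ := blocks_psd h
  obtain ⟨U, f, hU, hf⟩ := exists_spec (hX0.add hZ0).1
  have hf0 := sp_psd_iff hU (hf ▸ hX0.add hZ0)
  have hV : Uni (fromBlocks U 0 0 U) := by
    constructor <;> rw [fromBlocks_conjTranspose, fromBlocks_multiply] <;>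
      simp [hU.1, hU.2, fromBlocks_one]
  have h1 := peierls hV h
  have e : ∀ i, de (fromBlocks U 0 0 U) (fromBlocks X Y Y' Z) i =
      Sum.elim (de U X) (de U Z) i := by
    intro i
    rw [de, fromBlocks_conjTranspose, fromBlocks_multiply, fromBlocks_multiply]
    rcases i with i | i <;> simp [de]
  simp only [e, Fintype.sum_sum_type, Sum.elim_inl, Sum.elim_inr] at h1
  have h3 := logsum (de_nonneg U hX0) (de_nonneg U hZ0)
  simp only [sum_de hU, ← de_add] at h3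
  have : vnEntropy (X + Z) = ∑ i, Real.negMulLog (de U (X + Z) i) := by
    rw [hf, ent_sp hU hf0]; simp only [de_sp hU]
  rw [Sh, rt_add]
  linarith

/-! ### convexity of the Wootters function -/

/-- Wootters' function -/
noncomputable def EE (c : ℝ) : ℝ := Real.binEntropy ((1 + √(1 - c ^ 2)) / 2)

lemma EE_cont : Continuous EE := by
  unfold EE
  exact Real.binEntropy_continuous.comp (by fun_prop)

/-- its derivative -/
noncomputable def ED (c : ℝ) : ℝ :=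
  c * (Real.log (1 + √(1 - c ^ 2)) - Real.log (1 - √(1 - c ^ 2))) / (2 * √(1 - c ^ 2))

lemma s_facts {c : ℝ} (hc : c ∈ Ioo (0 : ℝ) 1) :
    0 < √(1 - c ^ 2) ∧ √(1 - c ^ 2) < 1 ∧ √(1 - c ^ 2) ^ 2 = 1 - c ^ 2 ∧
      HasDerivAt (fun c : ℝ => √(1 - c ^ 2)) (-c / √(1 - c ^ 2)) c := by
  have h1 : 0 < 1 - c ^ 2 := by nlinarith [hc.1, hc.2]
  have h2 := Real.sqrt_pos.mpr h1
  refine ⟨h2, (Real.sqrt_lt' one_pos).mpr (by nlinarith [hc.1]), Real.sq_sqrt h1.le, ?_⟩
  have := ((hasDerivAt_pow 2 c).const_sub 1).sqrt h1.ne'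
  refine this.congr_deriv ?_
  field_simp; norm_num

lemma EE_deriv {c : ℝ} (hc : c ∈ Ioo (0 : ℝ) 1) : HasDerivAt EE (ED c) c := by
  obtain ⟨h1, h2, -, h4⟩ := s_facts hc
  have h5 := (Real.hasDerivAt_binEntropy (p := (1 + √(1 - c ^ 2)) / 2) (by positivity)
    (by linarith)).comp c ((h4.const_add 1).div_const 2)
  refine HasDerivAt.congr_deriv h5 ?_
  have e : 1 - (1 + √(1 - c ^ 2)) / 2 = (1 - √(1 - c ^ 2)) / 2 := by ring
  rw [e, Real.log_div (by linarith) two_ne_zero, Real.log_div (by linarith) two_ne_zero, ED]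
  field_simp; ring

lemma atanh_ge {s : ℝ} (h0 : 0 < s) (h1 : s < 1) : 2 * s ≤ Real.log (1 + s) - Real.log (1 - s) := by
  have h2 : 0 < 1 - s := by linarith
  have := Real.le_log_one_add_of_nonneg (x := 2 * s / (1 - s)) (by positivity)
  have e1 : 1 + 2 * s / (1 - s) = (1 + s) / (1 - s) := by field_simp; ring
  have e2 : 2 * (2 * s / (1 - s)) / (2 * s / (1 - s) + 2) = 2 * s := by field_simp; ring
  rwa [e1, e2, Real.log_div (by linarith) h2.ne'] at this

lemma ED_deriv {c : ℝ} (hc : c ∈ Ioo (0 : ℝ) 1) : HasDerivAt ED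
    ((Real.log (1 + √(1 - c ^ 2)) - Real.log (1 - √(1 - c ^ 2)) - 2 * √(1 - c ^ 2)) /
      (2 * √(1 - c ^ 2) ^ 3)) c := by
  obtain ⟨h1, h2, h3, h4⟩ := s_facts hc
  have h5 := ((hasDerivAt_id' c).fun_mul (((h4.const_add 1).log (by linarith)).fun_sub
    ((h4.const_sub 1).log (by linarith)))).fun_div (h4.const_mul 2) (by positivity)
  refine HasDerivAt.congr_deriv h5 ?_
  set s := √(1 - c ^ 2)
  have h6 : 1 - s ≠ 0 := by linarith
  have h7 : 1 + s ≠ 0 := by linarith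
  have h8 : c ^ 2 = (1 - s) * (1 + s) := by linarith
  generalize Real.log (1 + s) - Real.log (1 - s) = A
  field_simp
  rw [h8]; ring

lemma EE_convex : ConvexOn ℝ (Icc 0 1) EE := by
  refine convexOn_of_hasDerivWithinAt2_nonneg (convex_Icc 0 1) EE_cont.continuousOn
    (fun x hx => (EE_deriv (by simpa using hx)).hasDerivWithinAt)
    (fun x hx => (ED_deriv (by simpa using hx)).hasDerivWithinAt) fun x hx => ?_
  obtain ⟨h1, h2, -, -⟩ := s_facts (c := x) (by simpa using hx)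
  have := atanh_ge h1 h2
  exact div_nonneg (by linarith) (by positivity)

lemma EE_mono : MonotoneOn EE (Icc 0 1) := by
  refine monotoneOn_of_hasDerivWithinAt_nonneg (convex_Icc 0 1) EE_cont.continuousOn
    (fun x hx => (EE_deriv (by simpa using hx)).hasDerivWithinAt) fun x hx => ?_
  have hx' : x ∈ Ioo (0 : ℝ) 1 := by simpa using hx
  obtain ⟨h1, h2, -, -⟩ := s_facts hx'
  have := atanh_ge h1 h2
  exact div_nonneg (mul_nonneg hx'.1.le (by linarith)) (by positivity)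

lemma ff_jensen {g n : ℝ} (hg : g ∈ Icc (0 : ℝ) 1) (hn : n ∈ Icc (0 : ℝ) 1) {ι : Type} [Fintype ι]
    {q p : ι → ℝ} (hq : ∀ a, 0 ≤ q a) (hq1 : ∑ a, q a = 1) (hp : ∀ a, p a ∈ Icc (0 : ℝ) 1)
    (hpb : ∑ a, q a * p a ∈ Icc (0 : ℝ) 1) :
    ff g n (∑ a, q a * p a) ≤ ∑ a, q a * ff g n (p a) := by
  have hC : ∀ x, ff g n x = EE √(4 * vv g n x) := by
    intro x
    rw [ff, EE, Real.sq_sqrt (by linarith [vv_nonneg hg hn x])]
  have hI : ∀ x ∈ Icc (0 : ℝ) 1, √(4 * vv g n x) ∈ Icc (0 : ℝ) 1 := fun x hx =>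
    ⟨Real.sqrt_nonneg _, Real.sqrt_le_one.mpr (vv_le hg n hx)⟩
  simp only [hC]
  have h1 := EE_convex.map_sum_le (t := Finset.univ) (w := q)
    (p := fun a => √(4 * vv g n (p a))) (fun a _ => hq a) hq1 fun a _ => hI _ (hp a)
  simp only [smul_eq_mul] at h1
  refine le_trans (EE_mono (hI _ hpb) ?_ ?_) h1
  · have := (convex_Icc (0 : ℝ) 1).sum_mem (t := Finset.univ) (w := q)
      (z := fun a => √(4 * vv g n (p a))) (fun a _ => hq a) hq1 fun a _ => hI _ (hp a)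
    simpa using this
  · set P := ∑ a, q a * p a with hP
    set c0 := g * n * (1 - n) with hc0
    set c1 := g * (1 - g) with hc1
    have h0 : 0 ≤ c0 := mul_nonneg (mul_nonneg hg.1 hn.1) (sub_nonneg.mpr hn.2)
    have h1' : 0 ≤ c1 := mul_nonneg hg.1 (sub_nonneg.mpr hg.2)
    have hv : ∀ x, vv g n x = c0 + c1 * (x - n) ^ 2 := fun x => rfl
    have hcs : ∀ a, 4 * (c0 + c1 * ((P - n) * (p a - n))) ≤
        √(4 * vv g n P) * √(4 * vv g n (p a)) := by
      intro a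
      rw [← Real.sqrt_mul (by linarith [vv_nonneg hg hn P])]
      refine Real.le_sqrt_of_sq_le ?_
      rw [hv, hv]
      nlinarith [mul_nonneg (mul_nonneg h0 h1') (sq_nonneg (P - p a))]
    have hs : 4 * vv g n P ≤ √(4 * vv g n P) * ∑ a, q a * √(4 * vv g n (p a)) := by
      have := Finset.sum_le_sum (s := Finset.univ) fun a _ =>
        mul_le_mul_of_nonneg_left (hcs a) (hq a)
      have e1 : ∑ a, q a * (4 * (c0 + c1 * ((P - n) * (p a - n)))) = 4 * vv g n P := by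
        have : ∀ a, q a * (4 * (c0 + c1 * ((P - n) * (p a - n)))) =
            (4 * c0 - 4 * c1 * (P - n) * n) * q a + 4 * c1 * (P - n) * (q a * p a) := fun a => by
          ring
        simp only [this, Finset.sum_add_distrib, ← Finset.mul_sum, hq1, ← hP, hv]; ring
      rw [e1] at this
      refine this.trans (le_of_eq ?_)
      rw [Finset.mul_sum]
      exact Finset.sum_congr rfl fun a _ => by ring
    rcases (Real.sqrt_nonneg (4 * vv g n P)).eq_or_lt with h | h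
    · rw [← h]
      exact Finset.sum_nonneg fun a _ => mul_nonneg (hq a) (Real.sqrt_nonneg _)
    · refine le_of_mul_le_mul_left ?_ h
      rwa [Real.mul_self_sqrt (by linarith [vv_nonneg hg hn P])]

end Crest.Agent.H5.AD
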