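import Crest.Agent.H5.AD.B4

set_option autoImplicit false
set_option linter.unusedSectionVars false
set_option linter.unusedSimpArgs false

namespace Crest.Agent.H5.AD

open Matrix Set Filter Crest.Agent.H5.PR Crest.Quantum Crest.MathPhysics.AmpDamp
open scoped ComplexOrder MatrixOrder BigOperators Topology Kronecker

local notation "η" => Real.negMulLog

variable {d e : Type} [Fintype d] [Fintype e] [DecidableEq d] [DecidableEq e]

lemma eq_blocks (M : Matrix (Bool × d) (Bool × d) ℂ) :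
    M = (fromBlocks (block M false false) (block M false true) (block M true false)
      (block M true true)).submatrix (Equiv.boolProdEquivSum d) (Equiv.boolProdEquivSum d) := by
  ext ⟨s, i⟩ ⟨t, j⟩
  cases s <;> cases t <;> rfl

lemma psd_to_blocks {M : Matrix (Bool × d) (Bool × d) ℂ} (h : M.PosSemidef) :
    (fromBlocks (block M false false) (block M false true) (block M true false)
      (block M true true)).PosSemidef := by
  have := h.submatrix (Equiv.boolProdEquivSum d).symm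
  convert this using 1
  ext (i | i) (j | j) <;> rfl

lemma rt_bool (M : Matrix (Bool × d) (Bool × d) ℂ) :
    rt M = rt (block M false false) + rt (block M true true) := by
  conv_lhs => rw [eq_blocks M, rt_submatrix, rt_blocks]

lemma qT_eq (g n : ℝ) (Ψ : Matrix d d ℂ → Matrix e e ℂ) (M : Matrix (Bool × d) (Bool × d) ℂ) :
    qubitTensor (gadMap g n) Ψ M =
      (gb g n (Ψ (block M false false)) (Ψ (block M false true)) (Ψ (block M true false))
        (Ψ (block M true true))).submatrix (Equiv.boolProdEquivSum e) (Equiv.boolProdEquivSum e) := by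
  ext ⟨s, i⟩ ⟨t, j⟩
  cases s <;> cases t <;>
    simp [qubitTensor, qubitCoeff, gadMap, gb, Equiv.boolProdEquivSum, single_apply, add_comm]

lemma chan_blocks {Ψ : Matrix d d ℂ → Matrix e e ℂ} (hΨ : IsChannel Ψ)
    {M : Matrix (Bool × d) (Bool × d) ℂ} (h : M.PosSemidef) :
    (fromBlocks (Ψ (block M false false)) (Ψ (block M false true)) (Ψ (block M true false))
      (Ψ (block M true true))).PosSemidef := by
  have h1 := (hΨ.2.1 2 _ (h.submatrix (Prod.map finTwoEquiv id))).submatrix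
    (Sum.elim (fun i => ((0 : Fin 2), i)) (fun i => ((1 : Fin 2), i)) : e ⊕ e → Fin 2 × e)
  convert h1 using 1
  ext (i | i) (j | j) <;> rfl

lemma chan_psd {Ψ : Matrix d d ℂ → Matrix e e ℂ} (hΨ : IsChannel Ψ)
    {M : Matrix d d ℂ} (h : M.PosSemidef) : (Ψ M).PosSemidef := by
  have h1 := (hΨ.2.1 1 _ (h.submatrix Prod.snd)).submatrix (fun i : e => ((0 : Fin 1), i))
  exact h1

lemma chan_rt {Ψ : Matrix d d ℂ → Matrix e e ℂ} (hΨ : IsChannel Ψ) (M : Matrix d d ℂ) :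
    rt (Ψ M) = rt M := by rw [rt, rt, hΨ.2.2 M]

lemma rsmul_eq (c : ℝ) (M : Matrix d d ℂ) : c • M = (c : ℂ) • M := (Complex.coe_smul c M).symm

lemma chan_smul {Ψ : Matrix d d ℂ → Matrix e e ℂ} (hΨ : IsChannel Ψ) (c : ℝ) (M : Matrix d d ℂ) :
    Ψ (c • M) = c • Ψ M := by rw [rsmul_eq, hΨ.1.map_smul, rsmul_eq]

lemma dens_iff {M : Matrix d d ℂ} : IsDensity M ↔ M.PosSemidef ∧ rt M = 1 := by
  refine ⟨fun h => ⟨h.1, by rw [rt, h.2]; simp⟩, fun h => ⟨h.1, ?_⟩⟩
  have := (Complex.nonneg_iff.mp h.1.trace_nonneg).2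
  exact Complex.ext h.2 this.symm

lemma chan_dens {Ψ : Matrix d d ℂ → Matrix e e ℂ} (hΨ : IsChannel Ψ) {M : Matrix d d ℂ}
    (h : IsDensity M) : IsDensity (Ψ M) := ⟨chan_psd hΨ h.1, by rw [hΨ.2.2, h.2]⟩

lemma Sh_dens {M : Matrix d d ℂ} (h : IsDensity M) : Sh M = vnEntropy M := by
  rw [Sh, (dens_iff.mp h).2]; simp

lemma exists_norm [Nonempty d] {X : Matrix d d ℂ} (h : X.PosSemidef) :
    ∃ σ : Matrix d d ℂ, IsDensity σ ∧ X = rt X • σ := by
  rcases (rt_nonneg h).eq_or_lt with h0 | h0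
  · have hX : X = 0 := by
      apply h.trace_eq_zero_iff.mp
      have := (Complex.nonneg_iff.mp h.trace_nonneg).2
      exact Complex.ext h0.symm this.symm
    refine ⟨(Fintype.card d : ℝ)⁻¹ • 1, dens_iff.mpr ⟨psd_rsmul PosSemidef.one (by positivity), ?_⟩,
      by rw [← h0, zero_smul, hX]⟩
    rw [rt_smul, rt, trace_one]
    have : (Fintype.card d : ℝ) ≠ 0 := by exact_mod_cast Fintype.card_ne_zero
    simp [this]
  · refine ⟨(rt X)⁻¹ • X, dens_iff.mpr ⟨psd_rsmul h (by positivity), ?_⟩, ?_⟩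
    · rw [rt_smul, inv_mul_cancel₀ h0.ne']
    · rw [smul_smul, mul_inv_cancel₀ h0.ne', one_smul]

lemma qT_dens {g n : ℝ} (hg : g ∈ Icc (0 : ℝ) 1) (hn : n ∈ Icc (0 : ℝ) 1)
    {Ψ : Matrix d d ℂ → Matrix e e ℂ} (hΨ : IsChannel Ψ) {M : Matrix (Bool × d) (Bool × d) ℂ}
    (h : IsDensity M) : IsDensity (qubitTensor (gadMap g n) Ψ M) := by
  rw [dens_iff, qT_eq]
  refine ⟨(gb_psd hg hn (chan_blocks hΨ h.1)).submatrix _, ?_⟩
  rw [rt_submatrix, rt_gb, chan_rt hΨ, chan_rt hΨ, ← rt_bool, (dens_iff.mp h).2]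

lemma key2 [Nonempty d] {g n : ℝ} (hg : g ∈ Icc (0 : ℝ) 1) (hn : n ∈ Icc (0 : ℝ) 1)
    {Ψ : Matrix d d ℂ → Matrix e e ℂ} (hΨ : IsChannel Ψ) {M : Matrix (Bool × d) (Bool × d) ℂ}
    (h : IsDensity M) : ∃ (p : ℝ) (σ0 σ1 : Matrix d d ℂ), p ∈ Icc (0 : ℝ) 1 ∧ IsDensity σ0 ∧
      IsDensity σ1 ∧ block M false false = (1 - p) • σ0 ∧ block M true true = p • σ1 ∧
      ff g n p + (1 - p) * vnEntropy (Ψ σ0) + p * vnEntropy (Ψ σ1) ≤
        vnEntropy (qubitTensor (gadMap g n) Ψ M) := by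
  obtain ⟨hX, hZ⟩ := blocks_psd (psd_to_blocks h.1)
  obtain ⟨σ0, h0, e0⟩ := exists_norm hX
  obtain ⟨σ1, h1, e1⟩ := exists_norm hZ
  have ht : rt (block M false false) + rt (block M true true) = 1 := by
    rw [← rt_bool, (dens_iff.mp h).2]
  have hq : rt (block M false false) = 1 - rt (block M true true) := by linarith
  have hp0 := rt_nonneg hZ
  have hp1 := rt_nonneg hX
  rw [hq] at e0 hp1
  refine ⟨rt (block M true true), σ0, σ1, ⟨hp0, by linarith⟩, h0, h1, e0, e1, ?_⟩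
  have hk := key hg hn (chan_blocks hΨ h.1) (by rw [chan_rt hΨ, chan_rt hΨ, ht])
  rw [qT_eq, ent_submatrix (gb_psd hg hn (chan_blocks hΨ h.1))]
  rw [chan_rt hΨ] at hk
  refine le_of_eq_of_le ?_ hk
  set p := rt (block M true true)
  rw [e0, e1, chan_smul hΨ, chan_smul hΨ, Sh_smul (chan_psd hΨ h0.1) hp1,
    Sh_smul (chan_psd hΨ h1.1) hp0, Sh_dens (chan_dens hΨ h0), Sh_dens (chan_dens hΨ h1)]

lemma subadd2 {N : Matrix (Bool × e) (Bool × e) ℂ} (h : IsDensity N) :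
    vnEntropy N ≤ Real.binEntropy (rt (block N true true)) +
      vnEntropy (block N false false + block N true true) := by
  have h1 := subadd (psd_to_blocks h.1)
  have ht : rt (block N false false) + rt (block N true true) = 1 := by
    rw [← rt_bool, (dens_iff.mp h).2]
  rw [← ent_submatrix (psd_to_blocks h.1) (Equiv.boolProdEquivSum e), ← eq_blocks, Sh, rt_add,
    ht] at h1
  rw [Real.binEntropy_eq_negMulLog_add_negMulLog_one_sub,
    show 1 - rt (block N true true) = rt (block N false false) by linarith]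
  simp only [Real.negMulLog_one, sub_zero] at h1
  linarith

/-- ensembles over an arbitrary finite index type -/
def Ens {ι : Type} [Fintype ι] (q : ι → ℝ) (ρ : ι → Matrix d d ℂ) : Prop :=
  (∀ a, 0 ≤ q a) ∧ ∑ a, q a = 1 ∧ ∀ a, IsDensity (ρ a)

/-- Holevo information over an arbitrary finite index type -/
noncomputable def hol {ι : Type} [Fintype ι] (Φ : Matrix d d ℂ → Matrix e e ℂ) (q : ι → ℝ)
    (ρ : ι → Matrix d d ℂ) : ℝ :=
  vnEntropy (∑ a, (q a : ℂ) • Φ (ρ a)) - ∑ a, q a * vnEntropy (Φ (ρ a))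

lemma to_fin {ι : Type} [Fintype ι] (Φ : Matrix d d ℂ → Matrix e e ℂ) {q : ι → ℝ}
    {ρ : ι → Matrix d d ℂ} (h : Ens q ρ) :
    ∃ (m : ℕ) (q' : Fin m → ℝ) (ρ' : Fin m → Matrix d d ℂ), IsEnsemble q' ρ' ∧
      holevoInfo Φ q' ρ' = hol Φ q ρ := by
  let E := (Fintype.equivFin ι).symm
  refine ⟨_, fun a => q (E a), fun a => ρ (E a), ⟨fun a => h.1 _, ?_, fun a => h.2.2 _⟩, ?_⟩
  · rw [E.sum_comp q, h.2.1]
  · rw [holevoInfo, hol, E.sum_comp (fun a => (q a : ℂ) • Φ (ρ a)),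
      E.sum_comp (fun a => q a * vnEntropy (Φ (ρ a)))]

lemma avg_dens {ι : Type} [Fintype ι] {q : ι → ℝ} {ρ : ι → Matrix d d ℂ} (h : Ens q ρ) :
    IsDensity (∑ a, (q a : ℂ) • ρ a) := by
  simp only [← rsmul_eq]
  rw [dens_iff, rt_sum]
  refine ⟨psd_sum _ fun a _ => psd_rsmul (h.2.2 a).1 (h.1 a), ?_⟩
  simp only [rt_smul, (dens_iff.mp (h.2.2 _)).2, mul_one, h.2.1]

lemma block_avg {ι : Type} [Fintype ι] (q : ι → ℝ) (N : ι → Matrix (Bool × e) (Bool × e) ℂ)
    (s t : Bool) : block (∑ a, (q a : ℂ) • N a) s t = ∑ a, q a • block (N a) s t := by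
  ext i j
  simp [block, Matrix.sum_apply]

lemma block_qT (g n : ℝ) (Ψ : Matrix d d ℂ → Matrix e e ℂ) (M : Matrix (Bool × d) (Bool × d) ℂ) :
    block (qubitTensor (gadMap g n) Ψ M) false false =
      (1 - g * n) • Ψ (block M false false) + (g * (1 - n)) • Ψ (block M true true) ∧
    block (qubitTensor (gadMap g n) Ψ M) true true =
      (g * n) • Ψ (block M false false) + (1 - g + g * n) • Ψ (block M true true) := by
  rw [qT_eq]; exact ⟨rfl, rfl⟩

lemma main1 [Nonempty d] {g n : ℝ} (hg : g ∈ Icc (0 : ℝ) 1) (hn : n ∈ Icc (0 : ℝ) 1)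
    {Ψ : Matrix d d ℂ → Matrix e e ℂ} (hΨ : IsChannel Ψ) {ι : Type} [Fintype ι] {q : ι → ℝ}
    {ρ : ι → Matrix (Bool × d) (Bool × d) ℂ} (h : Ens q ρ) :
    ∃ p ∈ Icc (0 : ℝ) 1, ∃ (q2 : ι × Bool → ℝ) (ρ2 : ι × Bool → Matrix d d ℂ), Ens q2 ρ2 ∧
      hol (qubitTensor (gadMap g n) Ψ) q ρ ≤ gadRate g n p + hol Ψ q2 ρ2 := by
  choose p σ0 σ1 hp h0 h1 e0 e1 hk using fun a => key2 hg hn hΨ (h.2.2 a)
  have hpb : ∑ a, q a * p a ∈ Icc (0 : ℝ) 1 := by
    have := (convex_Icc (0 : ℝ) 1).sum_mem (t := Finset.univ) (w := q) (z := p)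
      (fun a _ => h.1 a) h.2.1 fun a _ => hp a
    simpa using this
  refine ⟨_, hpb, fun x => q x.1 * (if x.2 then p x.1 else 1 - p x.1),
    fun x => if x.2 then σ1 x.1 else σ0 x.1, ⟨fun x => ?_, ?_, fun x => ?_⟩, ?_⟩
  · have := hp x.1
    refine mul_nonneg (h.1 _) ?_
    split_ifs
    · exact this.1
    · linarith [this.2]
  · rw [Fintype.sum_prod_type]
    refine Eq.trans (Finset.sum_congr rfl fun a _ => ?_) h.2.1
    simp only [Fintype.sum_bool, if_true, Bool.false_eq_true, if_false]; ring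
  · beta_reduce
    split_ifs
    · exact h1 _
    · exact h0 _
  · have hE : Ens q fun a => qubitTensor (gadMap g n) Ψ (ρ a) :=
      ⟨h.1, h.2.1, fun a => qT_dens hg hn hΨ (h.2.2 a)⟩
    have hs := subadd2 (avg_dens hE)
    simp only [block_avg, (block_qT g n Ψ _).1, (block_qT g n Ψ _).2, e0, e1, chan_smul hΨ,
      rt_sum, rt_smul, rt_add, chan_rt hΨ, (dens_iff.mp (h0 _)).2, (dens_iff.mp (h1 _)).2] at hs
    have a1 : ∑ a, q a * (g * n * ((1 - p a) * 1) + (1 - g + g * n) * (p a * 1)) =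
        (1 - g) * ∑ a, q a * p a + g * n := by
      have : ∀ a, q a * (g * n * ((1 - p a) * 1) + (1 - g + g * n) * (p a * 1)) =
          (1 - g) * (q a * p a) + g * n * q a := fun a => by ring
      simp only [this]
      simp only [Finset.sum_add_distrib, ← Finset.mul_sum, h.2.1, mul_one]
    have a2 : ∑ a, q a • ((1 - g * n) • (1 - p a) • Ψ (σ0 a) + (g * (1 - n)) • p a • Ψ (σ1 a)) +
        ∑ a, q a • ((g * n) • (1 - p a) • Ψ (σ0 a) + (1 - g + g * n) • p a • Ψ (σ1 a)) =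
        ∑ x : ι × Bool, ((q x.1 * (if x.2 then p x.1 else 1 - p x.1) : ℝ) : ℂ) •
          Ψ (if x.2 then σ1 x.1 else σ0 x.1) := by
      rw [Fintype.sum_prod_type, ← Finset.sum_add_distrib]
      refine Finset.sum_congr rfl fun a _ => ?_
      simp only [Fintype.sum_bool, if_true, Bool.false_eq_true, if_false, ← rsmul_eq]
      module
    rw [a1, a2] at hs
    have a3 := ff_jensen hg hn h.1 h.2.1 hp hpb
    have a4 := Finset.sum_le_sum (s := Finset.univ) fun a _ =>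
      mul_le_mul_of_nonneg_left (hk a) (h.1 a)
    have a5 : ∑ x : ι × Bool, q x.1 * (if x.2 then p x.1 else 1 - p x.1) *
        vnEntropy (Ψ (if x.2 then σ1 x.1 else σ0 x.1)) + ∑ a, q a * ff g n (p a) =
        ∑ a, q a * (ff g n (p a) + (1 - p a) * vnEntropy (Ψ (σ0 a)) + p a * vnEntropy (Ψ (σ1 a))) := by
      rw [Fintype.sum_prod_type, ← Finset.sum_add_distrib]
      refine Finset.sum_congr rfl fun a _ => ?_
      simp only [Fintype.sum_bool, if_true, Bool.false_eq_true, if_false]; ring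
    have a6 : gadRate g n (∑ a, q a * p a) = Real.binEntropy ((1 - g) * ∑ a, q a * p a + g * n) -
      ff g n (∑ a, q a * p a) := rfl
    rw [hol, hol, a6]
    linarith

/-! ### the single qubit -/

lemma det_bool (M : Matrix Bool Bool ℂ) :
    M.det = M false false * M true true - M false true * M true false := by
  rw [← det_submatrix_equiv_self finTwoEquiv, det_fin_two]; rfl

lemma ent_bool {M : Matrix Bool Bool ℂ} (h : IsDensity M) {x y : ℝ} (hx : 0 ≤ x) (hy : 0 ≤ y)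
    (hxy : x + y = 1) (hd : M.det = ((x * y : ℝ) : ℂ)) : vnEntropy M = η x + η y := by
  have h1 := rep_ent h.1
  rw [(dens_iff.mp h).2] at h1
  refine h1.unique (((rep_log hx).add (rep_log hy)).congr (fun t ht => ?_) hxy rfl)
  have ht' : (t : ℂ) ≠ 0 := by exact_mod_cast ht.ne'
  have h2 := h.2
  simp only [trace, diag, Fintype.sum_bool] at h2
  rw [det_bool] at hd
  have hxy' : (x : ℂ) + y = 1 := by exact_mod_cast hxy
  have e : (1 + t⁻¹ • M).det = (((1 + x / t) * (1 + y / t) : ℝ) : ℂ) := by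
    rw [det_bool]
    simp only [Matrix.add_apply, Matrix.smul_apply, one_apply_eq, Complex.real_smul,
      one_apply_ne (show false ≠ true by simp), one_apply_ne (show true ≠ false by simp)]
    push_cast at hd ⊢
    field_simp
    linear_combination t * h2 - t * hxy' + hd
  rw [Lg, nd, e, Complex.norm_real, Real.norm_eq_abs, abs_of_pos (by positivity),
    Real.log_mul (by positivity) (by positivity)]

lemma gad_dens {g n : ℝ} (hg : g ∈ Icc (0 : ℝ) 1) (hn : n ∈ Icc (0 : ℝ) 1)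
    {M : Matrix Bool Bool ℂ} (h : IsDensity M) : IsDensity (gadMap g n M) := by
  constructor
  · have h1 : (fromBlocks (of fun _ _ : Unit => M false false) (of fun _ _ : Unit => M false true)
        (of fun _ _ : Unit => M true false) (of fun _ _ : Unit => M true true)).PosSemidef := by
      convert h.1.submatrix (Sum.elim (fun _ => false) (fun _ => true) : Unit ⊕ Unit → Bool) using 1
      ext (i | i) (j | j) <;> rfl
    convert (gb_psd hg hn h1).submatrix
      (fun b : Bool => if b then Sum.inr () else Sum.inl ()) using 1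
    ext s t
    cases s <;> cases t <;> simp [gadMap, gb]
  · have h2 := h.2
    simp only [trace, diag, Fintype.sum_bool] at h2
    simp only [trace, diag, Fintype.sum_bool, gadMap, of_apply]
    simp
    linear_combination h2

/-- pure states of population `p` with real coherence of either sign -/
noncomputable def pst (p : ℝ) (b : Bool) : Matrix Bool Bool ℂ :=
  of fun s t => if s = t then (if s then (p : ℂ) else (1 - p : ℝ))
    else ((if b then 1 else -1) * √(p * (1 - p)) : ℝ)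

lemma pst_dens {p : ℝ} (hp : p ∈ Icc (0 : ℝ) 1) (b : Bool) : IsDensity (pst p b) := by
  have h1 := Real.mul_self_sqrt hp.1
  have h2 := Real.mul_self_sqrt (sub_nonneg.mpr hp.2)
  constructor
  · have := posSemidef_vecMulVec_self_star
      (fun s : Bool => if s then (((if b then 1 else -1) * √p : ℝ) : ℂ) else (√(1 - p) : ℝ))
    convert this using 1
    ext s t
    simp only [pst, of_apply, vecMulVec_apply, Pi.star_apply, Real.sqrt_mul hp.1]
    cases s <;> cases t <;> cases b <;> simp <;> norm_cast <;> linarith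
  · simp [trace, pst]

lemma ent_pst {g n : ℝ} (hg : g ∈ Icc (0 : ℝ) 1) (hn : n ∈ Icc (0 : ℝ) 1) {p : ℝ}
    (hp : p ∈ Icc (0 : ℝ) 1) (b : Bool) : vnEntropy (gadMap g n (pst p b)) = ff g n p := by
  obtain ⟨x, y, hx, hy, hxy, hv, hf⟩ := exists_xy hg hn hp
  rw [hf]
  refine ent_bool (gad_dens hg hn (pst_dens hp b)) hx hy hxy ?_
  have h1 := Real.mul_self_sqrt (mul_nonneg hp.1 (sub_nonneg.mpr hp.2))
  have h2 := Real.mul_self_sqrt (sub_nonneg.mpr hg.2)
  rw [hv, det_bool]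
  simp only [gadMap, pst, of_apply]
  simp only [and_self, if_true, Bool.true_eq_false, Bool.false_eq_true, if_false, and_false,
    false_and]
  have h3 : (if b = true then (1 : ℝ) else -1) * (if b = true then (1 : ℝ) else -1) = 1 := by
    split_ifs <;> norm_num
  generalize (if b = true then (1 : ℝ) else -1) = ε at h3 ⊢
  norm_cast
  rw [vv]
  generalize √(p * (1 - p)) = r at h1 ⊢
  generalize √(1 - g) = L at h2 ⊢
  have : L * (ε * r) * (L * (ε * r)) = (1 - g) * (p * (1 - p)) := by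
    rw [← h1, ← h2]; linear_combination L * L * r * r * h3
  rw [this]; ring

lemma ens_pst {p : ℝ} (hp : p ∈ Icc (0 : ℝ) 1) : Ens (fun _ : Bool => (1 / 2 : ℝ)) (pst p) :=
  ⟨fun _ => by norm_num, by simp, pst_dens hp⟩

lemma hol_pst {g n : ℝ} (hg : g ∈ Icc (0 : ℝ) 1) (hn : n ∈ Icc (0 : ℝ) 1) {p : ℝ}
    (hp : p ∈ Icc (0 : ℝ) 1) :
    hol (gadMap g n) (fun _ : Bool => (1 / 2 : ℝ)) (pst p) = gadRate g n p := by
  have a6 : gadRate g n p = Real.binEntropy ((1 - g) * p + g * n) - ff g n p := rfl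
  have e : ∑ a : Bool, (((1 / 2 : ℝ)) : ℂ) • gadMap g n (pst p a) =
      sp 1 fun s => if s then (1 - g) * p + g * n else 1 - ((1 - g) * p + g * n) := by
    ext s t
    cases s <;> cases t <;> simp [gadMap, pst, sp, dg] <;> ring
  have h1 := hg.1; have h2 := sub_nonneg.mpr hg.2; have h3 := hn.1; have h4 := sub_nonneg.mpr hn.2
  have h5 := hp.1; have h6 := sub_nonneg.mpr hp.2
  rw [hol, a6, e, ent_sp ⟨by simp, by simp⟩, Real.binEntropy_eq_negMulLog_add_negMulLog_one_sub]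
  · simp only [ent_pst hg hn hp, Fintype.sum_bool, if_true, Bool.false_eq_true, if_false]; ring
  · intro s
    split_ifs
    · positivity
    · have : 1 - ((1 - g) * p + g * n) = (1 - g) * (1 - p) + g * (1 - n) := by ring
      rw [this]; positivity

/-! ### products -/

lemma kron_dens {A : Matrix d d ℂ} {B : Matrix e e ℂ} (hA : IsDensity A) (hB : IsDensity B) :
    IsDensity (A ⊗ₖ B) := ⟨hA.1.kronecker hB.1, by rw [trace_kronecker, hA.2, hB.2, mul_one]⟩

lemma ent_kron {A : Matrix d d ℂ} {B : Matrix e e ℂ} (hA : IsDensity A) (hB : IsDensity B) :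
    vnEntropy (A ⊗ₖ B) = vnEntropy A + vnEntropy B := by
  obtain ⟨U, f, hU, rfl⟩ := exists_spec hA.1.1
  obtain ⟨V, k, hV, rfl⟩ := exists_spec hB.1.1
  have hf := sp_psd_iff hU hA.1
  have hk := sp_psd_iff hV hB.1
  have h1 := (dens_iff.mp hA).2
  have h2 := (dens_iff.mp hB).2
  rw [rt_sp hU] at h1
  rw [rt_sp hV] at h2
  have e : sp U f ⊗ₖ sp V k = sp (U ⊗ₖ V) fun x => f x.1 * k x.2 := by
    simp only [sp, mul_kronecker_mul, conjTranspose_kronecker, dg, diagonal_kronecker_diagonal]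
    push_cast; rfl
  have hW : Uni (U ⊗ₖ V) := by
    constructor <;> rw [conjTranspose_kronecker, ← mul_kronecker_mul]
    · rw [hU.1, hV.1, one_kronecker_one]
    · rw [hU.2, hV.2, one_kronecker_one]
  rw [e, ent_sp hW fun x => mul_nonneg (hf _) (hk _), ent_sp hU hf, ent_sp hV hk,
    Fintype.sum_prod_type]
  simp only [Real.negMulLog_mul, Finset.sum_add_distrib, ← Finset.sum_mul, ← Finset.mul_sum, h1, h2,
    one_mul]

lemma qT_kron (g n : ℝ) {Ψ : Matrix d d ℂ → Matrix e e ℂ} (hΨ : IsChannel Ψ)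
    (A : Matrix Bool Bool ℂ) (B : Matrix d d ℂ) :
    qubitTensor (gadMap g n) Ψ (A ⊗ₖ B) = gadMap g n A ⊗ₖ Ψ B := by
  have hb : ∀ s t, block (A ⊗ₖ B) s t = A s t • B := fun s t => rfl
  rw [qT_eq]
  simp only [hb, hΨ.1.map_smul]
  ext ⟨s, i⟩ ⟨t, j⟩
  cases s <;> cases t <;> simp [gb, gadMap, Equiv.boolProdEquivSum] <;> ring

lemma ens_prod {ι κ : Type} [Fintype ι] [Fintype κ] {q1 : ι → ℝ} {q2 : κ → ℝ}
    {ρ1 : ι → Matrix d d ℂ} {ρ2 : κ → Matrix e e ℂ} (h1 : Ens q1 ρ1) (h2 : Ens q2 ρ2) :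
    Ens (fun x : ι × κ => q1 x.1 * q2 x.2) fun x => ρ1 x.1 ⊗ₖ ρ2 x.2 := by
  refine ⟨fun x => mul_nonneg (h1.1 _) (h2.1 _), ?_, fun x => kron_dens (h1.2.2 _) (h2.2.2 _)⟩
  rw [Fintype.sum_prod_type]
  simp only [← Finset.mul_sum, h2.2.1, mul_one, h1.2.1]

lemma main2 {g n : ℝ} (hg : g ∈ Icc (0 : ℝ) 1) (hn : n ∈ Icc (0 : ℝ) 1)
    {Ψ : Matrix d d ℂ → Matrix e e ℂ} (hΨ : IsChannel Ψ) {ι κ : Type} [Fintype ι] [Fintype κ]
    {q1 : ι → ℝ} {q2 : κ → ℝ} {ρ1 : ι → Matrix Bool Bool ℂ} {ρ2 : κ → Matrix d d ℂ}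
    (h1 : Ens q1 ρ1) (h2 : Ens q2 ρ2) :
    hol (qubitTensor (gadMap g n) Ψ) (fun x : ι × κ => q1 x.1 * q2 x.2)
      (fun x => ρ1 x.1 ⊗ₖ ρ2 x.2) = hol (gadMap g n) q1 ρ1 + hol Ψ q2 ρ2 := by
  have hE1 : Ens q1 fun a => gadMap g n (ρ1 a) := ⟨h1.1, h1.2.1, fun a => gad_dens hg hn (h1.2.2 a)⟩
  have hE2 : Ens q2 fun a => Ψ (ρ2 a) := ⟨h2.1, h2.2.1, fun a => chan_dens hΨ (h2.2.2 a)⟩
  have e : ∑ x : ι × κ, ((q1 x.1 * q2 x.2 : ℝ) : ℂ) • (gadMap g n (ρ1 x.1) ⊗ₖ Ψ (ρ2 x.2)) =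
      (∑ a, (q1 a : ℂ) • gadMap g n (ρ1 a)) ⊗ₖ (∑ b, (q2 b : ℂ) • Ψ (ρ2 b)) := by
    ext ⟨s, i⟩ ⟨t, j⟩
    simp only [Matrix.sum_apply, Matrix.smul_apply, kroneckerMap_apply, smul_eq_mul,
      Finset.sum_mul_sum, Fintype.sum_prod_type]
    refine Finset.sum_congr rfl fun a _ => Finset.sum_congr rfl fun b _ => ?_
    push_cast; ring
  simp only [hol, qT_kron g n hΨ, e, ent_kron (avg_dens hE1) (avg_dens hE2),
    ent_kron (hE1.2.2 _) (hE2.2.2 _), Fintype.sum_prod_type]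
  have : ∀ a b, q1 a * q2 b * (vnEntropy (gadMap g n (ρ1 a)) + vnEntropy (Ψ (ρ2 b))) =
      q1 a * vnEntropy (gadMap g n (ρ1 a)) * q2 b + q1 a * (q2 b * vnEntropy (Ψ (ρ2 b))) :=
    fun a b => by ring
  simp only [this, Finset.sum_add_distrib, ← Finset.mul_sum, h2.2.1, mul_one, ← Finset.sum_mul,
    h1.2.1, one_mul]
  ring

end Crest.Agent.H5.AD
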