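import Crest.Agent.H5.AD.B5

set_option autoImplicit false
set_option linter.unusedSectionVars false
set_option linter.unusedSimpArgs false

namespace Crest.Agent.H5.AD

open Matrix Set Filter Crest.Agent.H5.PR Crest.Quantum Crest.MathPhysics.AmpDamp
open scoped ComplexOrder MatrixOrder BigOperators Topology Kronecker

lemma choi {g n : ℝ} (hg : g ∈ Icc (0 : ℝ) 1) (hn : n ∈ Icc (0 : ℝ) 1) :
    ∃ D : Matrix (Bool × Bool) (Bool × Bool) ℂ, ∀ s t s' t',
      qubitCoeff (gadMap g n) s t s' t' = ∑ k, star (D k (s, s')) * D k (t, t') := by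
  have h0 := posSemidef_vecMulVec_self_star (fun x : Bool × Bool => if x.1 = x.2 then (1 : ℂ) else 0)
  have h1 := (gb_psd hg hn (psd_to_blocks h0)).submatrix (Equiv.boolProdEquivSum Bool)
  obtain ⟨D, hD⟩ := exists_fac h1
  refine ⟨D, fun s t s' t' => ?_⟩
  have := congrFun (congrFun hD (s, s')) (t, t')
  rw [Matrix.mul_apply] at this
  simp only [conjTranspose_apply] at this
  rw [← this]
  cases s <;> cases t <;> cases s' <;> cases t' <;>
    simp [qubitCoeff, gadMap, gb, block, Equiv.boolProdEquivSum, vecMulVec_apply, single_apply]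

lemma qP_chan {g n : ℝ} (hg : g ∈ Icc (0 : ℝ) 1) (hn : n ∈ Icc (0 : ℝ) 1) (N : ℕ) :
    IsChannel (qubitPower N (gadMap g n)) := by
  refine ⟨⟨fun M M' => ?_, fun c M => ?_⟩, fun k M hM => ?_, fun M => ?_⟩
  · ext σ τ
    simp only [qubitPower, of_apply, Matrix.add_apply, mul_add, Finset.sum_add_distrib]
  · ext σ τ
    simp only [qubitPower, of_apply, Matrix.smul_apply, smul_eq_mul, Finset.mul_sum]
    refine Finset.sum_congr rfl fun _ _ => Finset.sum_congr rfl fun _ _ => by ring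
  · obtain ⟨D, hD⟩ := choi hg hn
    let A : (Fin N → Bool × Bool) → Matrix (Fin N → Bool) (Fin N → Bool) ℂ :=
      fun κ => of fun σ σ' => ∏ i, star (D (κ i) (σ i, σ' i))
    have hP : ∀ σ τ σ' τ' : Fin N → Bool, ∏ i, qubitCoeff (gadMap g n) (σ i) (τ i) (σ' i) (τ' i) =
        ∑ κ : Fin N → Bool × Bool, ∏ i, star (D (κ i) (σ i, σ' i)) * D (κ i) (τ i, τ' i) := by
      intro σ τ σ' τ'
      simp only [hD, Finset.prod_univ_sum, Fintype.piFinset_univ]
    have e : blockwise (qubitPower N (gadMap g n)) M =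
        ∑ κ, ((1 : Matrix (Fin k) (Fin k) ℂ) ⊗ₖ A κ) * M *
          ((1 : Matrix (Fin k) (Fin k) ℂ) ⊗ₖ A κ)ᴴ := by
      ext ⟨a, σ⟩ ⟨b, τ⟩
      simp only [blockwise, qubitPower, block, of_apply, hP, Matrix.sum_apply, Matrix.mul_apply, conjTranspose_apply,
        kroneckerMap_apply, Fintype.sum_prod_type, one_apply, ite_mul, one_mul, zero_mul,
        Finset.sum_ite_irrel, Finset.sum_const_zero, Finset.sum_ite_eq, Finset.mem_univ, if_true,
        apply_ite star, star_zero, mul_ite, mul_zero, Finset.sum_mul, A]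
      rw [Finset.sum_comm]
      conv_rhs => rw [Finset.sum_comm]
      refine Finset.sum_congr rfl fun τ' _ => ?_
      rw [Finset.sum_comm]
      refine Finset.sum_congr rfl fun κ _ => Finset.sum_congr rfl fun σ' _ => ?_
      rw [Finset.prod_mul_distrib, star_prod]
      simp only [star_star]; ring
    rw [e]
    exact psd_sum _ fun κ _ => hM.mul_mul_conjTranspose_same _
  · have h1 : ∀ s' t', ∑ s, qubitCoeff (gadMap g n) s s s' t' = if s' = t' then 1 else 0 := by
      intro s' t'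
      cases s' <;> cases t' <;> simp [qubitCoeff, gadMap, single_apply]
      ring
    simp only [trace, diag, qubitPower, of_apply]
    rw [Finset.sum_comm]
    refine Finset.sum_congr rfl fun σ' _ => ?_
    rw [Finset.sum_comm]
    have h2 : ∀ τ' : Fin N → Bool, ∑ σ : Fin N → Bool,
        (∏ i, qubitCoeff (gadMap g n) (σ i) (σ i) (σ' i) (τ' i)) * M σ' τ' =
        if σ' = τ' then M σ' τ' else 0 := by
      intro τ'
      rw [← Finset.sum_mul, ← Fintype.piFinset_univ,
        ← Finset.prod_univ_sum (fun _ => Finset.univ)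
          (fun i s => qubitCoeff (gadMap g n) s s (σ' i) (τ' i))]
      simp only [h1, Finset.prod_ite_zero, Finset.mem_univ, forall_const, Finset.prod_const_one,
        ← funext_iff, ite_mul, one_mul, zero_mul]
    simp only [h2, Finset.sum_ite_eq, Finset.mem_univ, if_true]

/-- splitting off the first qubit -/
def spl (N : ℕ) : Bool × (Fin N → Bool) ≃ (Fin (N + 1) → Bool) := Fin.consEquiv fun _ => Bool

lemma qP_succ (Φ : Matrix Bool Bool ℂ → Matrix Bool Bool ℂ) (N : ℕ)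
    (M : Matrix (Fin (N + 1) → Bool) (Fin (N + 1) → Bool) ℂ) :
    (qubitPower (N + 1) Φ M).submatrix (spl N) (spl N) =
      qubitTensor Φ (qubitPower N Φ) (M.submatrix (spl N) (spl N)) := by
  ext ⟨s, σ⟩ ⟨t, τ⟩
  simp only [submatrix_apply, qubitPower, qubitTensor, of_apply, block]
  rw [← (spl N).sum_comp, Fintype.sum_prod_type]
  refine Finset.sum_congr rfl fun s' _ => ?_
  simp only [Finset.mul_sum]
  conv_rhs => rw [Finset.sum_comm]
  refine Finset.sum_congr rfl fun σ' _ => ?_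
  rw [← (spl N).sum_comp, Fintype.sum_prod_type]
  refine Finset.sum_congr rfl fun t' _ => Finset.sum_congr rfl fun τ' _ => ?_
  rw [Fin.prod_univ_succ, mul_assoc]
  rfl

lemma dens_sub {d e : Type} [Fintype d] [Fintype e] [DecidableEq d] [DecidableEq e]
    {M : Matrix d d ℂ} (h : IsDensity M) (E : e ≃ d) : IsDensity (M.submatrix E E) :=
  dens_iff.mpr ⟨h.1.submatrix _, by rw [rt_submatrix, (dens_iff.mp h).2]⟩

lemma hol_succ {g n : ℝ} (hg : g ∈ Icc (0 : ℝ) 1) (hn : n ∈ Icc (0 : ℝ) 1) (N : ℕ)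
    {ι : Type} [Fintype ι] {q : ι → ℝ} {ρ : ι → Matrix (Fin (N + 1) → Bool) (Fin (N + 1) → Bool) ℂ}
    (h : Ens q ρ) : hol (qubitPower (N + 1) (gadMap g n)) q ρ =
      hol (qubitTensor (gadMap g n) (qubitPower N (gadMap g n))) q
        fun a => (ρ a).submatrix (spl N) (spl N) := by
  have hE : Ens q fun a => qubitPower (N + 1) (gadMap g n) (ρ a) :=
    ⟨h.1, h.2.1, fun a => chan_dens (qP_chan hg hn _) (h.2.2 a)⟩
  simp only [hol, ← qP_succ, ent_submatrix (hE.2.2 _).1]
  rw [← ent_submatrix (avg_dens hE).1 (spl N)]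
  congr 2
  ext i j
  simp [Matrix.sum_apply]

lemma ent_unique {d : Type} [Fintype d] [DecidableEq d] [Unique d] {M : Matrix d d ℂ}
    (h : IsDensity M) : vnEntropy M = 0 := by
  have e : M = sp 1 fun _ => 1 := by
    have := h.2
    simp only [trace, diag, Fintype.sum_unique] at this
    ext i j
    rw [Subsingleton.elim i default, Subsingleton.elim j default, this]
    simp [sp, dg]
  rw [e, ent_sp ⟨by simp, by simp⟩ fun _ => zero_le_one]; simp

lemma hol_zero {g n : ℝ} (hg : g ∈ Icc (0 : ℝ) 1) (hn : n ∈ Icc (0 : ℝ) 1)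
    {ι : Type} [Fintype ι] {q : ι → ℝ} {ρ : ι → Matrix (Fin 0 → Bool) (Fin 0 → Bool) ℂ}
    (h : Ens q ρ) : hol (qubitPower 0 (gadMap g n)) q ρ = 0 := by
  have hE : Ens q fun a => qubitPower 0 (gadMap g n) (ρ a) :=
    ⟨h.1, h.2.1, fun a => chan_dens (qP_chan hg hn _) (h.2.2 a)⟩
  simp only [hol, ent_unique (avg_dens hE), ent_unique (hE.2.2 _)]
  simp

lemma upper {g n : ℝ} (hg : g ∈ Icc (0 : ℝ) 1) (hn : n ∈ Icc (0 : ℝ) 1) (N : ℕ) :
    ∀ (ι : Type) [Fintype ι] (q : ι → ℝ) (ρ : ι → Matrix (Fin N → Bool) (Fin N → Bool) ℂ),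
      Ens q ρ → ∃ p ∈ Icc (0 : ℝ) 1, hol (qubitPower N (gadMap g n)) q ρ ≤ N * gadRate g n p := by
  induction N with
  | zero =>
    intro ι _ q ρ h
    exact ⟨0, ⟨le_rfl, zero_le_one⟩, by rw [hol_zero hg hn h]; simp⟩
  | succ N ih =>
    intro ι _ q ρ h
    obtain ⟨p, hp, q2, ρ2, h2, hle⟩ := main1 hg hn (qP_chan hg hn N)
      (ρ := fun a => (ρ a).submatrix (spl N) (spl N)) ⟨h.1, h.2.1, fun a => dens_sub (h.2.2 a) _⟩
    obtain ⟨p', hp', hle'⟩ := ih _ q2 ρ2 h2
    rw [hol_succ hg hn N h]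
    push_cast
    have hN : (0 : ℝ) ≤ N := Nat.cast_nonneg N
    rcases le_total (gadRate g n p) (gadRate g n p') with hc | hc
    · exact ⟨p', hp', by nlinarith⟩
    · exact ⟨p, hp, by nlinarith [mul_le_mul_of_nonneg_left hc hN]⟩

lemma lower {g n : ℝ} (hg : g ∈ Icc (0 : ℝ) 1) (hn : n ∈ Icc (0 : ℝ) 1) {p : ℝ}
    (hp : p ∈ Icc (0 : ℝ) 1) (N : ℕ) :
    ∃ (m : ℕ) (q : Fin m → ℝ) (ρ : Fin m → Matrix (Fin N → Bool) (Fin N → Bool) ℂ),
      IsEnsemble q ρ ∧ N * gadRate g n p ≤ holevoInfo (qubitPower N (gadMap g n)) q ρ := by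
  induction N with
  | zero =>
    have h : Ens (fun _ : Fin 1 => (1 : ℝ))
        (fun _ => (1 : Matrix (Fin 0 → Bool) (Fin 0 → Bool) ℂ)) :=
      ⟨fun _ => zero_le_one, by simp, fun _ => ⟨PosSemidef.one, by simp⟩⟩
    refine ⟨1, _, _, h, ?_⟩
    have := hol_zero hg hn h
    simp only [Nat.cast_zero, zero_mul]
    exact this.ge
  | succ N ih =>
    obtain ⟨m, q, ρ, h, hle⟩ := ih
    have h1 := ens_prod (ens_pst hp) h
    have h2 : Ens (fun x : Bool × Fin m => (1 / 2 : ℝ) * q x.2)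
        fun x => (pst p x.1 ⊗ₖ ρ x.2).submatrix (spl N).symm (spl N).symm :=
      ⟨h1.1, h1.2.1, fun a => dens_sub (h1.2.2 a) _⟩
    obtain ⟨m', q', ρ', h', e⟩ := to_fin (qubitPower (N + 1) (gadMap g n)) h2
    refine ⟨m', q', ρ', h', ?_⟩
    rw [e, hol_succ hg hn N h2]
    simp only [submatrix_submatrix, Equiv.symm_comp_self, submatrix_id_id]
    rw [main2 hg hn (qP_chan hg hn N) (ens_pst hp) h, hol_pst hg hn hp]
    push_cast
    have : holevoInfo (qubitPower N (gadMap g n)) q ρ = hol (qubitPower N (gadMap g n)) q ρ := rfl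
    linarith

end Crest.Agent.H5.AD
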